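import Vale.Agent.P171.Gc

open MeasureTheory Set
open scoped ENNReal

namespace Vale.Agent.P171

abbrev E3 := EuclideanSpace ℝ (Fin 3)

section gen
variable {E : Type}

def D2 (w : E → E → ℝ) (m : Multiset E) : ℝ := (m.map fun y => (m.map (w y)).sum).sum

lemma D2_conf (w : E → E → ℝ) {N : ℕ} (x : Fin N → E) :
    D2 w (conf x) = ∑ i, ∑ j, w (x i) (x j) := by
  simp only [D2, conf, Multiset.map_map]; rfl

lemma exists_conf (m : Multiset E) : ∃ (N : ℕ) (x : Fin N → E), m = conf x := by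
  induction m using Quot.ind with
  | mk l => exact ⟨l.length, l.get, by simp [conf]⟩

lemma mem_conf {N : ℕ} (x : Fin N → E) (i : Fin N) : x i ∈ conf x := by
  simp [conf]

lemma D2_mono {w w' : E → E → ℝ} (h : ∀ y y', w y y' ≤ w' y y') (m : Multiset E) :
    D2 w m ≤ D2 w' m := by
  obtain ⟨N, x, rfl⟩ := exists_conf m
  simp only [D2_conf]
  exact Finset.sum_le_sum fun i _ => Finset.sum_le_sum fun j _ => h _ _

lemma D2_add (w w' : E → E → ℝ) (m : Multiset E) :
    D2 (fun y y' => w y y' + w' y y') m = D2 w m + D2 w' m := by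
  obtain ⟨N, x, rfl⟩ := exists_conf m
  simp only [D2_conf, Finset.sum_add_distrib]

lemma D2_mul (c : ℝ) (w : E → E → ℝ) (m : Multiset E) :
    D2 (fun y y' => c * w y y') m = c * D2 w m := by
  obtain ⟨N, x, rfl⟩ := exists_conf m
  simp only [D2_conf, Finset.mul_sum]

lemma D2_const (c : ℝ) (m : Multiset E) : D2 (fun _ _ => c) m = c * (m.card : ℝ) ^ 2 := by
  simp [D2]; ring

lemma D2_sum {ι : Type} (S : Finset ι) (w : ι → E → E → ℝ) (m : Multiset E) :
    D2 (fun y y' => ∑ c ∈ S, w c y y') m = ∑ c ∈ S, D2 (w c) m := by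
  obtain ⟨N, x, rfl⟩ := exists_conf m
  simp only [D2_conf]
  rw [Finset.sum_comm (s := S)]
  exact Finset.sum_congr rfl fun i _ => Finset.sum_comm

lemma D2_nonneg {w : E → E → ℝ} (h : ∀ y y', 0 ≤ w y y') (m : Multiset E) : 0 ≤ D2 w m := by
  simpa [D2_const] using D2_mono (w := fun _ _ => 0) h m

lemma sum_filter (p : E → Prop) [DecidablePred p] (g : E → ℝ) (m : Multiset E) :
    ((m.filter p).map g).sum = (m.map fun y => if p y then g y else 0).sum := by
  induction m using Multiset.induction_on with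
  | empty => simp
  | cons a m ih => by_cases h : p a <;> simp [h, ih]

lemma D2_filter (p : E → Prop) [DecidablePred p] (w : E → E → ℝ) (m : Multiset E) :
    D2 w (m.filter p) = D2 (fun y y' => if p y ∧ p y' then w y y' else 0) m := by
  simp only [D2, sum_filter]
  congr 1
  refine Multiset.map_congr rfl fun y _ => ?_
  by_cases h : p y <;> simp [h]

lemma card_filter_conf (p : E → Prop) [DecidablePred p] {N : ℕ} (x : Fin N → E) :
    (((conf x).filter p).card : ℝ) = ∑ i, if p (x i) then 1 else 0 := by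
  have := sum_filter p (fun _ => 1) (conf x)
  simp only [Multiset.map_const', Multiset.sum_replicate, nsmul_eq_mul, mul_one] at this
  rw [this]; simp only [conf, Multiset.map_map]; rfl

noncomputable def sm {ι : Type} [DecidableEq ι] (lab : E → ι) (y y' : E) : ℝ := if lab y = lab y' then 1 else 0

lemma sm_nonneg {ι : Type} [DecidableEq ι] (lab : E → ι) (y y' : E) : 0 ≤ sm lab y y' := by
  unfold sm; split_ifs <;> norm_num

lemma sm_le {ι : Type} [DecidableEq ι] (lab : E → ι) (y y' : E) : sm lab y y' ≤ 1 := by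
  unfold sm; split_ifs <;> norm_num

lemma pair_eq {ι : Type} [DecidableEq ι] {N : ℕ} (f g : Fin N → ι) (S : Finset ι) (hf : ∀ i, f i ∈ S) :
    ∑ i, ∑ j, (if f i = g j then (1 : ℝ) else 0) =
      ∑ a ∈ S, (∑ i, if f i = a then (1 : ℝ) else 0) * ∑ j, if g j = a then (1 : ℝ) else 0 := by
  simp only [Finset.sum_mul_sum]
  rw [Finset.sum_comm (s := S)]
  refine Finset.sum_congr rfl fun i _ => ?_
  rw [Finset.sum_comm (s := S)]
  refine Finset.sum_congr rfl fun j _ => ?_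
  rw [Finset.sum_eq_single (f i)]
  · simp [eq_comm]
  · intro b _ hb; simp [hb.symm]
  · intro h; exact absurd (hf i) h

lemma card_sq_le {ι : Type} [DecidableEq ι] (lab : E → ι) (T : Finset ι) (m : Multiset E)
    (h : ∀ y ∈ m, lab y ∈ T) : (m.card : ℝ) ^ 2 ≤ T.card * D2 (sm lab) m := by
  obtain ⟨N, x, rfl⟩ := exists_conf m
  have hT : ∀ i, lab (x i) ∈ T := fun i => h _ (mem_conf x i)
  have e : (N : ℝ) = ∑ a ∈ T, ∑ i, if lab (x i) = a then (1 : ℝ) else 0 := by
    rw [Finset.sum_comm]; simp [hT]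
  rw [D2_conf, card_conf, e]
  simp only [sm]
  rw [pair_eq (fun i => lab (x i)) (fun i => lab (x i)) T hT]
  simp only [← sq]
  exact sq_sum_le_card_mul_sum_sq

lemma near_le (lab : E → Fin 3 → ℤ) (r : ℕ) {w : E → E → ℝ} (h1 : ∀ y y', w y y' ≤ 1)
    (h2 : ∀ y y', 0 < w y y' → ∀ j, |lab y j - lab y' j| ≤ r) (m : Multiset E) :
    D2 w m ≤ (2 * r + 1) ^ 3 * D2 (sm lab) m := by
  let D : Finset (Fin 3 → ℤ) := Fintype.piFinset fun _ => Finset.Icc (-(r : ℤ)) r
  have hD : (D.card : ℝ) = (2 * r + 1) ^ 3 := by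
    simp only [D, Fintype.card_piFinset, Int.card_Icc, Finset.prod_const, Finset.card_univ,
      Fintype.card_fin]
    rw [show ((r : ℤ) + 1 - -r).toNat = 2 * r + 1 by omega]; push_cast; ring
  have a1 : D2 w m ≤ ∑ d ∈ D, D2 (fun y y' => if lab y = lab y' + d then 1 else 0) m := by
    rw [← D2_sum]
    refine D2_mono (fun y y' => ?_) m
    by_cases h : 0 < w y y'
    · refine (h1 y y').trans ?_
      have := Finset.single_le_sum (f := fun d => if lab y = lab y' + d then (1 : ℝ) else 0)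
        (s := D) (fun d _ => by split_ifs <;> norm_num) (a := lab y - lab y') (by
          simp only [D, Fintype.mem_piFinset, Finset.mem_Icc]
          exact fun j => abs_le.mp (h2 y y' h j))
      simpa using this
    · exact (not_lt.mp h).trans (Finset.sum_nonneg fun d _ => by split_ifs <;> norm_num)
  refine a1.trans ?_
  rw [← hD, ← nsmul_eq_mul]
  refine Finset.sum_le_card_nsmul _ _ _ fun d _ => ?_
  obtain ⟨N, x, rfl⟩ := exists_conf m
  let f := fun i => lab (x i)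
  let g := fun i => lab (x i) + d
  let S := Finset.univ.image f ∪ Finset.univ.image g
  have e1 := pair_eq f g S (by simp [S])
  have e2 := pair_eq f f S (by simp [S])
  have e3 := pair_eq g g S (by simp [S])
  have e4 : ∑ i, ∑ j, (if g i = g j then (1 : ℝ) else 0) =
      ∑ i, ∑ j, (if f i = f j then (1 : ℝ) else 0) := by simp [f, g]
  have e5 := Finset.sum_le_sum (s := S) fun a _ => two_mul_le_add_sq
    (∑ i, if f i = a then (1 : ℝ) else 0) (∑ j, if g j = a then (1 : ℝ) else 0)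
  simp only [Finset.sum_add_distrib, sq, mul_assoc, ← Finset.mul_sum] at e5
  have e6 : D2 (sm lab) (conf x) = ∑ i, ∑ j, (if f i = f j then (1 : ℝ) else 0) := by
    rw [D2_conf]; rfl
  have e7 : D2 (fun y y' => if lab y = lab y' + d then (1 : ℝ) else 0) (conf x) =
      ∑ i, ∑ j, (if f i = g j then (1 : ℝ) else 0) := by
    rw [D2_conf]
  rw [e6, e7]
  linarith

lemma sum_cells {ι : Type} [DecidableEq ι] (lab : E → ι) (T : Finset ι) (w : E → E → ℝ) (s : ℝ) (m : Multiset E)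
    (h : ∀ y ∈ m, lab y ∈ T) :
    ∑ c ∈ T, (D2 w (m.filter (lab · = c)) + s * ((m.filter (lab · = c)).card : ℝ)) =
      D2 (fun y y' => w y y' * sm lab y y') m + s * m.card := by
  obtain ⟨N, x, rfl⟩ := exists_conf m
  have hT : ∀ i, lab (x i) ∈ T := fun i => h _ (mem_conf x i)
  simp only [Finset.sum_add_distrib, D2_filter, card_filter_conf, ← Finset.mul_sum, ← D2_sum]
  congr 1
  · simp only [D2_conf]
    refine Finset.sum_congr rfl fun i _ => Finset.sum_congr rfl fun j _ => ?_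
    rw [Finset.sum_eq_single (lab (x i))]
    · simp [sm, eq_comm]
    · intro b _ hb; simp [hb.symm]
    · intro h; exact absurd (hT i) h
  · rw [Finset.sum_comm]; simp [hT]

end gen

noncomputable def cell (l σ : ℕ) (y : E3) : Fin 3 → ℤ := fun j => (⌊y j⌋ + σ) / l

noncomputable def nr (k : ℕ) (y y' : E3) : ℝ := if dist y y' ≤ 2 * k then 1 else 0

noncomputable def V (m : Multiset E3) : ℝ := D2 (sm (cell 1 0)) m

lemma V_nonneg (m : Multiset E3) : 0 ≤ V m := D2_nonneg (sm_nonneg _) m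

lemma nr_nonneg (k : ℕ) (y y' : E3) : 0 ≤ nr k y y' := by unfold nr; split_ifs <;> norm_num

lemma floor_near {y y' : E3} {R : ℕ} (h : dist y y' ≤ R) (j : Fin 3) : ⌊y j⌋ ≤ ⌊y' j⌋ + R := by
  have := (PiLp.dist_apply_le y y' j).trans h
  rw [Real.dist_eq, abs_le] at this
  rw [← Int.floor_add_natCast]
  exact Int.floor_mono (by linarith)

lemma near_cell {l σ r : ℕ} (hl : 0 < l) {y y' : E3} (h : dist y y' ≤ (r * l : ℕ)) (j : Fin 3) :
    |cell l σ y j - cell l σ y' j| ≤ r := by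
  have key : ∀ y y' : E3, dist y y' ≤ (r * l : ℕ) → cell l σ y j ≤ cell l σ y' j + r := by
    intro y y' h
    have := floor_near h j
    simp only [cell]
    rw [← Int.add_mul_ediv_right _ _ (by omega)]
    exact Int.ediv_le_ediv (by omega) (by push_cast at this; linarith)
  have h1 := key y y' h
  have h2 := key y' y (by rwa [dist_comm])
  rw [abs_le]; constructor <;> linarith

lemma nr_le_V (k : ℕ) (hk : 1 ≤ k) (m : Multiset E3) : D2 (nr k) m ≤ 125 * (k : ℝ) ^ 3 * V m := by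
  refine (near_le (cell 1 0) (2 * k) (fun y y' => by unfold nr; split_ifs <;> norm_num)
    (fun y y' h => near_cell one_pos ?_) m).trans (mul_le_mul_of_nonneg_right ?_ (V_nonneg m))
  · unfold nr at h; split_ifs at h with h1
    · simpa using h1
    · simp at h
  · have : (1 : ℝ) ≤ k := by exact_mod_cast hk
    calc _ ≤ (5 * (k : ℝ)) ^ 3 := by push_cast; gcongr; linarith
      _ = _ := by ring

lemma nr_le_cell (l σ : ℕ) (hl : 1 ≤ l) (m : Multiset E3) :
    D2 (nr l) m ≤ 125 * D2 (sm (cell l σ)) m := by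
  refine (near_le (cell l σ) 2 (fun y y' => by unfold nr; split_ifs <;> norm_num)
    (fun y y' h => near_cell hl ?_) m).trans (by norm_num)
  unfold nr at h; split_ifs at h with h1
  · simpa using h1
  · simp at h

lemma sm_le_nr (k : ℕ) (hk : 1 ≤ k) (y y' : E3) : sm (cell k 0) y y' ≤ nr k y y' := by
  unfold sm
  split_ifs with h
  swap; · exact nr_nonneg _ _ _
  have key : ∀ j, dist (y j) (y' j) ^ 2 ≤ (k : ℝ) ^ 2 := by
    intro j
    have h1 := congrFun h j
    simp only [cell, Nat.cast_zero, add_zero] at h1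
    have hk' : (0 : ℤ) < k := by omega
    have a1 := Int.ediv_mul_le ⌊y j⌋ hk'.ne'
    have a2 := Int.lt_ediv_add_one_mul_self ⌊y j⌋ hk'
    have a3 := Int.ediv_mul_le ⌊y' j⌋ hk'.ne'
    have a4 := Int.lt_ediv_add_one_mul_self ⌊y' j⌋ hk'
    rw [← h1] at a3 a4
    have b1 : ⌊y j⌋ + 1 ≤ ⌊y' j⌋ + k := by linarith
    have b2 : ⌊y' j⌋ + 1 ≤ ⌊y j⌋ + k := by linarith
    have c1 : (⌊y j⌋ : ℝ) + 1 ≤ ⌊y' j⌋ + k := by exact_mod_cast b1
    have c2 : (⌊y' j⌋ : ℝ) + 1 ≤ ⌊y j⌋ + k := by exact_mod_cast b2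
    have := Int.floor_le (y j); have := Int.lt_floor_add_one (y j)
    have := Int.floor_le (y' j); have := Int.lt_floor_add_one (y' j)
    rw [Real.dist_eq, sq_abs]
    exact sq_le_sq' (by linarith) (by linarith)
  have : dist y y' ≤ 2 * k := by
    rw [EuclideanSpace.dist_eq, Fin.sum_univ_three]
    refine Real.sqrt_le_iff.mpr ⟨by positivity, ?_⟩
    nlinarith [key 0, key 1, key 2, sq_nonneg (k : ℝ)]
  simp [nr, this]

def box (L : ℝ) : Set E3 := {y | ∀ j, y j ∈ Icc 0 L}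

noncomputable def labs (M : ℕ) : Finset (Fin 3 → ℤ) := Fintype.piFinset fun _ => Finset.Icc 0 (M : ℤ)

lemma card_labs (M : ℕ) : (labs M).card = (M + 1) ^ 3 := by
  simp [labs, Fintype.card_piFinset]

lemma cell_mem {l σ M : ℕ} {L : ℝ} (hl : 1 ≤ l) (h : L + σ < (M + 1) * l) {y : E3}
    (hy : y ∈ box L) : cell l σ y ∈ labs M := by
  simp only [labs, Fintype.mem_piFinset, Finset.mem_Icc, cell]
  intro j
  have h0 : 0 ≤ ⌊y j⌋ := Int.floor_nonneg.mpr (hy j).1
  refine ⟨Int.ediv_nonneg (by omega) (by omega), Int.le_of_lt_add_one ?_⟩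
  rw [Int.ediv_lt_iff_lt_mul (by omega)]
  have : (⌊y j⌋ : ℝ) + σ < (M + 1) * l := by linarith [Int.floor_le (y j), (hy j).2]
  exact_mod_cast this

lemma card_sq_box {k : ℕ} (hk : 1 ≤ k) {L : ℝ} (hL : k ≤ L) (m : Multiset E3)
    (h : ∀ y ∈ m, y ∈ box L) : (m.card : ℝ) ^ 2 * k ^ 3 ≤ 8 * L ^ 3 * D2 (sm (cell k 0)) m := by
  have hk' : (0 : ℝ) < k := by exact_mod_cast hk
  have h1 := card_sq_le (cell k 0) (labs ⌊L / k⌋₊) m fun y hy => cell_mem hk (by
    have := Nat.lt_floor_add_one (L / k)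
    rw [div_lt_iff₀ hk'] at this; simpa using this) (h y hy)
  have h2 : ((⌊L / k⌋₊ : ℝ) + 1) * k ≤ 2 * L := by
    have := Nat.floor_le (a := L / k) (div_nonneg (by linarith) hk'.le)
    rw [le_div_iff₀ hk'] at this; linarith
  have h3 := pow_le_pow_left₀ (by positivity) h2 3
  have h4 := D2_nonneg (sm_nonneg (cell k 0)) m
  rw [card_labs] at h1
  push_cast at h1
  calc _ ≤ ((⌊L / k⌋₊ : ℝ) + 1) ^ 3 * D2 (sm (cell k 0)) m * k ^ 3 := by gcongr
    _ = (((⌊L / k⌋₊ : ℝ) + 1) * k) ^ 3 * D2 (sm (cell k 0)) m := by ring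
    _ ≤ (2 * L) ^ 3 * D2 (sm (cell k 0)) m := by gcongr
    _ = _ := by ring

lemma cnt_int {l : ℕ} (hl : 1 ≤ l) {u v : ℤ} {R : ℕ} (h1 : u ≤ v + R) (h2 : v ≤ u + R) :
    ((Finset.range l).filter fun σ : ℕ => (u + σ) / l ≠ (v + σ) / l).card ≤ R := by
  wlog h : u ≤ v generalizing u v
  · simpa only [ne_comm] using this h2 h1 (by omega)
  have hl' : (0 : ℤ) < l := by omega
  refine le_trans (Finset.card_le_card_of_injOn (t := Finset.Ioc u v)
    (fun σ : ℕ => (v + σ) / l * l - σ) ?_ ?_) (by simp; omega)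
  · intro σ hσ
    simp only [Finset.coe_filter, mem_ofPred_eq, Finset.coe_Ioc, mem_Ioc] at hσ ⊢
    have a1 := Int.ediv_mul_le (v + σ) hl'.ne'
    have a2 := Int.lt_ediv_add_one_mul_self (u + σ) hl'
    have a3 : (u + σ) / l + 1 ≤ (v + σ) / l :=
      lt_of_le_of_ne (Int.ediv_le_ediv hl' (by omega)) hσ.2
    have := mul_le_mul_of_nonneg_right a3 hl'.le
    constructor <;> linarith
  · intro σ hσ τ hτ he
    simp only [Finset.coe_filter, mem_ofPred_eq, Finset.mem_range] at hσ hτ he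
    have : (l : ℤ) ∣ (σ : ℤ) - τ := ⟨(v + σ) / l - (v + τ) / l, by linarith⟩
    have := Int.eq_zero_of_abs_lt_dvd this (by rw [abs_lt]; omega)
    omega

lemma cnt_le {l : ℕ} (hl : 1 ≤ l) {R : ℕ} {y y' : E3} (h : dist y y' ≤ R) :
    ∑ σ ∈ Finset.range l, (1 - sm (cell l σ) y y') ≤ 3 * R := by
  calc _ ≤ ∑ σ ∈ Finset.range l, ∑ j : Fin 3,
        if (⌊y j⌋ + σ) / l ≠ (⌊y' j⌋ + σ) / l then (1 : ℝ) else 0 := by
        refine Finset.sum_le_sum fun σ _ => ?_
        unfold sm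
        split_ifs with h1
        · simpa using Finset.sum_nonneg fun j _ => by split_ifs <;> norm_num
        · obtain ⟨j, hj⟩ := Function.ne_iff.mp h1
          have := Finset.single_le_sum (f := fun j : Fin 3 =>
            if (⌊y j⌋ + σ) / l ≠ (⌊y' j⌋ + σ) / l then (1 : ℝ) else 0)
            (fun j _ => by split_ifs <;> norm_num) (Finset.mem_univ j)
          simp only [if_pos (show (⌊y j⌋ + σ) / l ≠ (⌊y' j⌋ + σ) / l from hj)] at this
          linarith
    _ ≤ ∑ _j : Fin 3, (R : ℝ) := by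
        rw [Finset.sum_comm]
        refine Finset.sum_le_sum fun j _ => ?_
        rw [Finset.sum_boole]
        exact_mod_cast cnt_int hl (floor_near h j) (floor_near (by rwa [dist_comm]) j)
    _ = _ := by simp

noncomputable def psr (a : ℕ → ℝ) (r : ℝ) : ℝ :=
  ∑' k : ℕ, a k * ((if r ≤ 2 * ((k + 1 : ℕ) : ℝ) then 1 else 0) / ((k + 1 : ℕ) : ℝ) ^ 3)

noncomputable def psi (a : ℕ → ℝ) (y y' : E3) : ℝ := psr a (dist y y')

structure Ad (a : ℕ → ℝ) : Prop where
  pos : ∀ k, 0 ≤ a k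
  sum : Summable a

lemma wt_bd (r : ℝ) (k : ℕ) :
    0 ≤ (if r ≤ 2 * ((k + 1 : ℕ) : ℝ) then (1 : ℝ) else 0) / ((k + 1 : ℕ) : ℝ) ^ 3 ∧
    (if r ≤ 2 * ((k + 1 : ℕ) : ℝ) then (1 : ℝ) else 0) / ((k + 1 : ℕ) : ℝ) ^ 3 ≤ 1 := by
  have : (1 : ℝ) ≤ ((k + 1 : ℕ) : ℝ) ^ 3 := one_le_pow₀ (by simp)
  split_ifs
  · exact ⟨by positivity, by rw [div_le_one (by positivity)]; exact this⟩
  · simp

lemma Ad.sum_psr {a : ℕ → ℝ} (ha : Ad a) (r : ℝ) : Summable fun k : ℕ =>
    a k * ((if r ≤ 2 * ((k + 1 : ℕ) : ℝ) then 1 else 0) / ((k + 1 : ℕ) : ℝ) ^ 3) :=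
  ha.sum.of_nonneg_of_le (fun k => mul_nonneg (ha.pos k) (wt_bd r k).1)
    fun k => mul_le_of_le_one_right (ha.pos k) (wt_bd r k).2

lemma Ad.psr_nonneg {a : ℕ → ℝ} (ha : Ad a) (r : ℝ) : 0 ≤ psr a r :=
  tsum_nonneg fun k => mul_nonneg (ha.pos k) (wt_bd r k).1

lemma Ad.psr_le {a : ℕ → ℝ} (ha : Ad a) (r : ℝ) : psr a r ≤ ∑' k, a k :=
  (ha.sum_psr r).tsum_le_tsum (fun k => mul_le_of_le_one_right (ha.pos k) (wt_bd r k).2) ha.sum

lemma Ad.psr_meas {a : ℕ → ℝ} (ha : Ad a) : Measurable (psr a) := by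
  refine Antitone.measurable fun r r' h => (ha.sum_psr r').tsum_le_tsum (fun k => ?_) (ha.sum_psr r)
  refine mul_le_mul_of_nonneg_left ?_ (ha.pos k)
  gcongr
  split_ifs with h1 h2 <;> first | exact absurd (h.trans h1) h2 | norm_num

lemma Ad.hasSum {a : ℕ → ℝ} (ha : Ad a) (m : Multiset E3) :
    HasSum (fun k => a k * (D2 (nr (k + 1)) m / ((k + 1 : ℕ) : ℝ) ^ 3)) (D2 (psi a) m) := by
  obtain ⟨N, x, rfl⟩ := exists_conf m
  simp only [D2_conf, Finset.sum_div, Finset.mul_sum]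
  exact hasSum_sum fun i _ => hasSum_sum fun j _ => (ha.sum_psr _).hasSum

lemma Ad.D2_le {a : ℕ → ℝ} (ha : Ad a) (m : Multiset E3) :
    D2 (psi a) m ≤ 125 * (∑' k, a k) * V m := by
  refine hasSum_le (fun k => ?_) (ha.hasSum m) (by
    simpa [mul_comm, mul_assoc, mul_left_comm] using ha.sum.hasSum.mul_right (125 * V m))
  have := nr_le_V (k + 1) (by omega) m
  have h2 : D2 (nr (k + 1)) m / ((k + 1 : ℕ) : ℝ) ^ 3 ≤ 125 * V m := by
    rw [div_le_iff₀ (by positivity)]; linarith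
  nlinarith [ha.pos k]

lemma Ad.D2_ge {a : ℕ → ℝ} (ha : Ad a) {K : ℕ} {L : ℝ} (hL0 : 0 < L) (hL : K ≤ L)
    (m : Multiset E3) (h : ∀ y ∈ m, y ∈ box L) :
    (∑ k ∈ Finset.range K, a k) * ((m.card : ℝ) ^ 2 / (8 * L ^ 3)) ≤ D2 (psi a) m := by
  rw [Finset.sum_mul]
  refine le_trans (Finset.sum_le_sum fun k hk => ?_) (sum_le_hasSum (Finset.range K)
    (fun k _ => mul_nonneg (ha.pos k) (div_nonneg (D2_nonneg (nr_nonneg _) m) (by positivity)))
    (ha.hasSum m))
  refine mul_le_mul_of_nonneg_left ?_ (ha.pos k)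
  have h1 := card_sq_box (k := k + 1) (by omega) (le_trans (by
    exact_mod_cast Finset.mem_range.mp hk) hL) m h
  have h2 := D2_mono (sm_le_nr (k + 1) (by omega)) m
  rw [div_le_div_iff₀ (by positivity) (by positivity)]
  nlinarith [pow_pos hL0 3]

noncomputable def cut (a : ℕ → ℝ) (l : ℕ) (k : ℕ) : ℝ := a k * min 1 (6 * (k + 1 : ℕ) / l : ℝ)

lemma Ad.cut {a : ℕ → ℝ} (ha : Ad a) (l : ℕ) : Ad (cut a l) :=
  ⟨fun k => mul_nonneg (ha.pos k) (by positivity), ha.sum.of_nonneg_of_le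
    (fun k => mul_nonneg (ha.pos k) (by positivity))
    fun k => mul_le_of_le_one_right (ha.pos k) (min_le_left _ _)⟩

lemma Ad.cut_lim {a : ℕ → ℝ} (ha : Ad a) :
    Filter.Tendsto (fun l => ∑' k, P171.cut a l k) Filter.atTop (nhds 0) := by
  have := tendsto_tsum_of_dominated_convergence (𝓕 := Filter.atTop) (f := fun l => P171.cut a l)
    (g := fun _ => 0) ha.sum (fun k => by
      have := (tendsto_const_nhds (x := (1 : ℝ)).min
        (tendsto_const_div_atTop_nhds_zero_nat (6 * (k + 1 : ℕ) : ℝ))).const_mul (a k)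
      simpa [P171.cut] using this)
    (Filter.Eventually.of_forall fun l k => by
      rw [Real.norm_of_nonneg ((ha.cut l).pos k)]
      exact mul_le_of_le_one_right (ha.pos k) (min_le_left _ _))
  simpa using this

lemma Ad.shift {a : ℕ → ℝ} (ha : Ad a) {l : ℕ} (hl : 1 ≤ l) (m : Multiset E3) :
    ∃ σ ∈ Finset.range l, D2 (psi a) m ≤ D2 (fun y y' => psi a y y' * sm (cell l σ) y y') m +
      125 * (∑' k, P171.cut a l k) * V m := by
  have hl' : (0 : ℝ) < l := by exact_mod_cast hl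
  have h1 : ∑ σ ∈ Finset.range l, D2 (fun y y' => psi a y y' * (1 - sm (cell l σ) y y')) m ≤
      ∑ _σ ∈ Finset.range l, 125 * (∑' k, P171.cut a l k) * V m := by
    rw [← D2_sum, Finset.sum_const, Finset.card_range, nsmul_eq_mul]
    refine le_trans ?_ (mul_le_mul_of_nonneg_left ((ha.cut l).D2_le m) hl'.le)
    rw [← D2_mul]
    refine D2_mono (fun y y' => ?_) m
    rw [← Finset.mul_sum, psi, psi, psr, psr, ← tsum_mul_right, ← tsum_mul_left]
    refine ((ha.sum_psr _).mul_right _).tsum_le_tsum (fun k => ?_)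
      (((ha.cut l).sum_psr _).mul_left _)
    split_ifs with h
    · have c1 : ∑ σ ∈ Finset.range l, (1 - sm (cell l σ) y y') ≤ l := by
        simpa using Finset.sum_le_card_nsmul (Finset.range l) (fun σ => 1 - sm (cell l σ) y y') 1
          fun σ _ => by linarith [sm_nonneg (cell l σ) y y']
      have c2 := cnt_le hl (R := 2 * (k + 1)) (y := y) (y' := y') (by simpa using h)
      have c3 : ∑ σ ∈ Finset.range l, (1 - sm (cell l σ) y y') ≤
          l * min 1 (6 * (k + 1 : ℕ) / l : ℝ) := by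
        rw [mul_min_of_nonneg _ _ hl'.le, mul_one, mul_div_cancel₀ _ hl'.ne']
        exact le_min c1 (by push_cast at c2 ⊢; linarith)
      calc _ ≤ a k * (1 / ((k + 1 : ℕ) : ℝ) ^ 3) * (l * min 1 (6 * (k + 1 : ℕ) / l : ℝ)) :=
            mul_le_mul_of_nonneg_left c3 (mul_nonneg (ha.pos k) (by positivity))
        _ = _ := by rw [P171.cut]; ring
    · simp
  obtain ⟨σ, hσ, h2⟩ := Finset.exists_le_of_sum_le ⟨0, Finset.mem_range.mpr hl⟩ h1
  refine ⟨σ, hσ, le_trans (le_of_eq ?_) (add_le_add_right h2 _)⟩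
  rw [← D2_add]; congr 1; funext y y'; ring

end Vale.Agent.P171
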