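import Mathlib

open MeasureTheory Set
open scoped ENNReal

namespace Vale.Agent.P171

variable {E : Type} [MeasurableSpace E]

def conf {N : ℕ} (x : Fin N → E) : Multiset E := Finset.univ.val.map x

omit [MeasurableSpace E] in
lemma conf_cons {N : ℕ} (y : E) (x : Fin N → E) :
    conf (Fin.cons y x : Fin (N + 1) → E) = y ::ₘ conf x := by
  simp [conf, List.ofFn_succ]

omit [MeasurableSpace E] in
@[simp] lemma conf_zero (x : Fin 0 → E) : conf x = 0 := by simp [conf]

omit [MeasurableSpace E] in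
@[simp] lemma card_conf {N : ℕ} (x : Fin N → E) : (conf x).card = N := by simp [conf]

def MeasF (f : Multiset E → ℝ≥0∞) : Prop := ∀ N, Measurable fun x : Fin N → E => f (conf x)

lemma meas_cons (N : ℕ) :
    Measurable fun p : E × (Fin N → E) => (Fin.cons p.1 p.2 : Fin (N + 1) → E) := by
  refine measurable_pi_iff.mpr fun i => ?_
  refine Fin.cases ?_ (fun j => ?_) i
  · simpa using measurable_fst
  · simp only [Fin.cons_succ]; fun_prop

lemma MeasF.pair {f : Multiset E → ℝ≥0∞} (hf : MeasF f) (N : ℕ) :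
    Measurable fun p : E × (Fin N → E) => f (p.1 ::ₘ conf p.2) := by
  simpa only [Function.comp_def, conf_cons] using (hf (N + 1)).comp (meas_cons N)

lemma MeasF.cons {f : Multiset E → ℝ≥0∞} (hf : MeasF f) (y : E) : MeasF fun m => f (y ::ₘ m) :=
  fun N => (hf.pair N).comp (measurable_const.prodMk measurable_id)

lemma MeasF.mul {f g : Multiset E → ℝ≥0∞} (hf : MeasF f) (hg : MeasF g) :
    MeasF fun m => f m * g m := fun N => (hf N).mul (hg N)

lemma MeasF.add {f g : Multiset E → ℝ≥0∞} (hf : MeasF f) (hg : MeasF g) :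
    MeasF fun m => f m + g m := fun N => (hf N).add (hg N)

lemma MeasF.const (c : ℝ≥0∞) : MeasF fun _ : Multiset E => c := fun _ => measurable_const

lemma MeasF.prod {ι : Type} (T : Finset ι) {f : ι → Multiset E → ℝ≥0∞} (hf : ∀ c, MeasF (f c)) :
    MeasF fun m => ∏ c ∈ T, f c m := fun N => Finset.measurable_prod _ fun c _ => hf c N

noncomputable def J (N : ℕ) (μ : Measure E) (f : Multiset E → ℝ≥0∞) : ℝ≥0∞ :=
  ∫⁻ x : Fin N → E, f (conf x) ∂(Measure.pi fun _ => μ)

lemma J_zero (μ : Measure E) [SigmaFinite μ] (f : Multiset E → ℝ≥0∞) : J 0 μ f = f 0 := by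
  simp [J]

lemma J_succ (N : ℕ) (μ : Measure E) [SigmaFinite μ] {f : Multiset E → ℝ≥0∞} (hf : MeasF f) :
    J (N + 1) μ f = ∫⁻ y, J N μ (fun m => f (y ::ₘ m)) ∂μ := by
  have h := (measurePreserving_piFinSuccAbove (fun _ : Fin (N + 1) => μ) 0).symm
  rw [J, ← h.lintegral_comp (hf _)]
  simp only [J]
  rw [← lintegral_prod _ (hf.pair N).aemeasurable]
  refine lintegral_congr fun p => ?_
  rw [← conf_cons]
  simp [MeasurableEquiv.piFinSuccAbove, Fin.insertNthEquiv]

lemma J_meas (N : ℕ) (μ : Measure E) [SigmaFinite μ] {f : Multiset E → ℝ≥0∞} (hf : MeasF f) :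
    Measurable fun y => J N μ (fun m => f (y ::ₘ m)) :=
  (hf.pair N).lintegral_prod_right'

lemma J_le {μ ν : Measure E} [SigmaFinite μ] [SigmaFinite ν] {T : E → E} (hT : Measurable T)
    (hμ : μ.map T ≤ ν) {B : Set E} (hB : ∀ᵐ y ∂μ, y ∈ B) (N : ℕ) :
    ∀ {f g : Multiset E → ℝ≥0∞}, MeasF f → MeasF g →
      (∀ m, (∀ y ∈ m, y ∈ B) → f m ≤ g (m.map T)) → J N μ f ≤ J N ν g := by
  induction N with
  | zero => intro f g _ _ h; rw [J_zero, J_zero]; exact h 0 (by simp)
  | succ N ih =>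
    intro f g hf hg h
    rw [J_succ _ _ hf, J_succ _ _ hg]
    refine le_trans ?_ (lintegral_mono' hμ le_rfl)
    rw [lintegral_map (J_meas N ν hg) hT]
    refine lintegral_mono_ae (hB.mono fun y hy => ih (hf.cons y) (hg.cons _) fun m hm => ?_)
    have := h (y ::ₘ m) (by
      intro z hz
      rcases Multiset.mem_cons.mp hz with rfl | hz
      exacts [hy, hm z hz])
    rwa [Multiset.map_cons] at this

def Loc (B : Set E) (f : Multiset E → ℝ≥0∞) : Prop := ∀ m y, y ∉ B → f (y ::ₘ m) = f m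

omit [MeasurableSpace E] in
lemma Loc.cons {B : Set E} {f : Multiset E → ℝ≥0∞} (h : Loc B f) (y : E) :
    Loc B fun m => f (y ::ₘ m) := fun m z hz => by
  simp only [Multiset.cons_swap y z, h _ z hz]

lemma J_split (μ : Measure E) [SigmaFinite μ] {B : Set E} (hB : MeasurableSet B) (N : ℕ) :
    ∀ {f g : Multiset E → ℝ≥0∞}, MeasF f → MeasF g → Loc B f → Loc Bᶜ g →
      J N μ (fun m => f m * g m) = ∑ p ∈ Finset.HasAntidiagonal.antidiagonal N,
        (N.choose p.1 : ℝ≥0∞) * (J p.1 (μ.restrict B) f * J p.2 (μ.restrict Bᶜ) g) := by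
  induction N with
  | zero => intro f g _ _ _ _; simp [J_zero]
  | succ N ih =>
    intro f g hf hg lf lg
    rw [J_succ _ _ (hf.mul hg), ← lintegral_add_compl _ hB,
      Finset.sum_antidiagonal_choose_succ_mul
        (fun i j => J i (μ.restrict B) f * J j (μ.restrict Bᶜ) g), add_comm]
    congr 1
    · rw [setLIntegral_congr_fun hB.compl (g := fun y => ∑ p ∈ Finset.HasAntidiagonal.antidiagonal N,
        (N.choose p.1 : ℝ≥0∞) * (J p.1 (μ.restrict B) f *
          J p.2 (μ.restrict Bᶜ) (fun m => g (y ::ₘ m)))) (fun y hy => by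
          have : (fun m => f (y ::ₘ m) * g (y ::ₘ m)) = fun m => f m * g (y ::ₘ m) := by
            funext m; rw [lf m y hy]
          simp only [this]
          exact ih hf (hg.cons y) lf (lg.cons y)),
        lintegral_finsetSum _ fun p _ => ((J_meas _ _ hg).const_mul _).const_mul _]
      refine Finset.sum_congr rfl fun p _ => ?_
      rw [lintegral_const_mul _ ((J_meas _ _ hg).const_mul _),
        lintegral_const_mul _ (J_meas _ _ hg), J_succ _ _ hg]
    · rw [setLIntegral_congr_fun hB (g := fun y => ∑ p ∈ Finset.HasAntidiagonal.antidiagonal N,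
        (N.choose p.1 : ℝ≥0∞) * (J p.1 (μ.restrict B) (fun m => f (y ::ₘ m)) *
          J p.2 (μ.restrict Bᶜ) g)) (fun y hy => by
          have : (fun m => f (y ::ₘ m) * g (y ::ₘ m)) = fun m => f (y ::ₘ m) * g m := by
            funext m; rw [lg m y (by simpa using hy)]
          simp only [this]
          exact ih (hf.cons y) hg (lf.cons y) lg),
        lintegral_finsetSum _ fun p _ => ((J_meas _ _ hf).mul_const _).const_mul _]
      refine Finset.sum_congr rfl fun p hp => ?_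
      rw [lintegral_const_mul _ ((J_meas _ _ hf).mul_const _),
        lintegral_mul_const _ (J_meas _ _ hf), J_succ _ _ hf,
        Nat.choose_symm_of_eq_add (Finset.HasAntidiagonal.mem_antidiagonal.mp hp).symm]

noncomputable def I (μ : Measure E) (f : Multiset E → ℝ≥0∞) : ℝ≥0∞ :=
  ∑' N, ((N.factorial : ℝ≥0∞))⁻¹ * J N μ f

lemma I_le {μ ν : Measure E} [SigmaFinite μ] [SigmaFinite ν] {T : E → E} (hT : Measurable T)
    (hμ : μ.map T ≤ ν) {B : Set E} (hB : ∀ᵐ y ∂μ, y ∈ B) {f g : Multiset E → ℝ≥0∞}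
    (hf : MeasF f) (hg : MeasF g) (h : ∀ m, (∀ y ∈ m, y ∈ B) → f m ≤ g (m.map T)) :
    I μ f ≤ I ν g :=
  ENNReal.tsum_le_tsum fun N => mul_le_mul_right (J_le hT hμ hB N hf hg h) _

lemma I_mono {μ ν : Measure E} [SigmaFinite μ] [SigmaFinite ν]
    (hμ : μ ≤ ν) {B : Set E} (hB : ∀ᵐ y ∂μ, y ∈ B) {f g : Multiset E → ℝ≥0∞}
    (hf : MeasF f) (hg : MeasF g) (h : ∀ m, (∀ y ∈ m, y ∈ B) → f m ≤ g m) :
    I μ f ≤ I ν g :=
  I_le measurable_id (by simpa using hμ) hB hf hg (by simpa using h)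

lemma cauchy (a b : ℕ → ℝ≥0∞) : (∑' i, a i) * (∑' j, b j) =
    ∑' N, ∑ p ∈ Finset.HasAntidiagonal.antidiagonal N, a p.1 * b p.2 := by
  have h1 : (∑' i, a i) * (∑' j, b j) = ∑' p : ℕ × ℕ, a p.1 * b p.2 := by
    rw [ENNReal.tsum_prod']
    simp only [ENNReal.tsum_mul_left, ENNReal.tsum_mul_right]
  rw [h1, ← Finset.HasAntidiagonal.sigmaAntidiagonalEquivProd.tsum_eq, ENNReal.tsum_sigma']
  refine tsum_congr fun N => ?_
  rw [← Finset.tsum_subtype]
  rfl

lemma I_split (μ : Measure E) [SigmaFinite μ] {B : Set E} (hB : MeasurableSet B)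
    {f g : Multiset E → ℝ≥0∞} (hf : MeasF f) (hg : MeasF g) (lf : Loc B f) (lg : Loc Bᶜ g) :
    I μ (fun m => f m * g m) = I (μ.restrict B) f * I (μ.restrict Bᶜ) g := by
  rw [I, I, I, cauchy]
  refine tsum_congr fun N => ?_
  rw [J_split μ hB N hf hg lf lg, Finset.mul_sum]
  refine Finset.sum_congr rfl fun p hp => ?_
  have h1 := Finset.HasAntidiagonal.mem_antidiagonal.mp hp
  have h2 : (N.factorial : ℝ≥0∞) = N.choose p.1 * (p.1.factorial * p.2.factorial) := by
    rw [← h1, ← Nat.add_choose_mul_factorial_mul_factorial p.1 p.2,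
      Nat.choose_symm_add]
    push_cast; ring
  have h3 : (N.choose p.1 : ℝ≥0∞) ≠ 0 := by
    exact_mod_cast (Nat.choose_pos (by omega)).ne'
  have h4 : ∀ n : ℕ, (n.factorial : ℝ≥0∞) ≠ 0 := fun n => by exact_mod_cast n.factorial_ne_zero
  rw [h2, ENNReal.mul_inv (Or.inl h3) (Or.inl (by simp)),
    ENNReal.mul_inv (Or.inl (h4 _)) (Or.inl (by simp))]
  calc _ = ((N.choose p.1 : ℝ≥0∞)⁻¹ * N.choose p.1) * (((p.1.factorial : ℝ≥0∞)⁻¹ *
      J p.1 (μ.restrict B) f) * ((p.2.factorial : ℝ≥0∞)⁻¹ * J p.2 (μ.restrict Bᶜ) g)) := by ring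
    _ = _ := by rw [ENNReal.inv_mul_cancel h3 (by simp), one_mul]

lemma I_ge_zero (μ : Measure E) [SigmaFinite μ] (f : Multiset E → ℝ≥0∞) : f 0 ≤ I μ f := by
  have := ENNReal.le_tsum (f := fun N => ((N.factorial : ℝ≥0∞))⁻¹ * J N μ f) 0
  simpa [J_zero, I] using this

lemma I_ge_one (μ : Measure E) [SigmaFinite μ] {f : Multiset E → ℝ≥0∞} (hf : MeasF f) :
    ∫⁻ y, f {y} ∂μ ≤ I μ f := by
  have := ENNReal.le_tsum (f := fun N => ((N.factorial : ℝ≥0∞))⁻¹ * J N μ f) 1
  simpa [J_succ 0 μ hf, J_zero, I] using this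

lemma I_prod {ι : Type} (lab : E → ι) (hl : ∀ c, MeasurableSet {y | lab y = c})
    {f : ι → Multiset E → ℝ≥0∞} (hf : ∀ c, MeasF (f c)) (lf : ∀ c, Loc {y | lab y = c} (f c))
    (T : Finset ι) : ∀ (μ : Measure E) [SigmaFinite μ], (∀ᵐ y ∂μ, lab y ∈ T) →
      I μ (fun m => ∏ c ∈ T, f c m) = ∏ c ∈ T, I (μ.restrict {y | lab y = c}) (f c) := by
  classical
  induction T using Finset.induction_on with
  | empty =>
    intro μ _ h
    have : μ = 0 := by simpa using h
    subst this
    simp only [Finset.prod_empty, I]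
    rw [tsum_eq_single 0]
    · simp [J_zero]
    · intro N hN
      obtain ⟨k, rfl⟩ := Nat.exists_eq_succ_of_ne_zero hN
      rw [J_succ _ _ (MeasF.const 1)]; simp
  | insert c T hc ih =>
    intro μ _ h
    simp only [Finset.prod_insert hc]
    rw [I_split μ (hl c) (hf c) (MeasF.prod T hf) (lf c) (fun m y hy =>
      Finset.prod_congr rfl fun d hd => lf d m y (by
        simp only [mem_compl_iff, mem_ofPred_eq, not_not] at hy ⊢
        rintro rfl; exact hc (hy ▸ hd))), ih _ (by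
        filter_upwards [ae_restrict_of_ae h, ae_restrict_mem (hl c).compl] with y h1 h2
        exact (Finset.mem_insert.mp h1).resolve_left h2)]
    congr 1
    refine Finset.prod_congr rfl fun d hd => ?_
    rw [Measure.restrict_restrict (hl d), inter_eq_left.mpr]
    intro y hy h2
    simp only [mem_ofPred_eq] at hy h2
    exact hc (h2 ▸ hy ▸ hd)

lemma I_add (μ : Measure E) {f g : Multiset E → ℝ≥0∞} (hf : MeasF f) :
    I μ (fun m => f m + g m) = I μ f + I μ g := by
  simp only [I, J, lintegral_add_left (hf _), mul_add, ENNReal.tsum_add]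

lemma I_const_mul (μ : Measure E) (c : ℝ≥0∞) {f : Multiset E → ℝ≥0∞} (hf : MeasF f) :
    I μ (fun m => c * f m) = c * I μ f := by
  simp only [I, J, lintegral_const_mul _ (hf _), ← ENNReal.tsum_mul_left, mul_left_comm c]

lemma I_sum {ι : Type} (μ : Measure E) (S : Finset ι) {f : ι → Multiset E → ℝ≥0∞}
    (hf : ∀ c, MeasF (f c)) : I μ (fun m => ∑ c ∈ S, f c m) = ∑ c ∈ S, I μ (f c) := by
  classical
  induction S using Finset.induction_on with
  | empty => simp [I, J]
  | insert c T hc ih => simp only [Finset.sum_insert hc]; rw [I_add μ (hf c), ih]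

lemma I_exp (μ : Measure E) [SigmaFinite μ] {v : ℝ} (hv : 0 ≤ v) (hμ : μ univ = ENNReal.ofReal v)
    (s : ℝ) : I μ (fun m => ENNReal.ofReal (Real.exp (s * m.card))) =
      ENNReal.ofReal (Real.exp (Real.exp s * v)) := by
  have h1 := NormedSpace.expSeries_div_hasSum_exp (𝔸 := ℝ) (Real.exp s * v)
  rw [← Real.exp_eq_exp_ℝ] at h1
  rw [← h1.tsum_eq, ENNReal.ofReal_tsum_of_nonneg (fun n => by positivity) h1.summable, I]
  refine tsum_congr fun N => ?_
  simp only [J, card_conf, lintegral_const, Measure.pi_univ, hμ, Finset.prod_const,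
    Finset.card_univ, Fintype.card_fin]
  rw [← ENNReal.ofReal_pow hv, ← ENNReal.ofReal_mul (by positivity), ← ENNReal.ofReal_natCast,
    ← ENNReal.ofReal_inv_of_pos (by positivity), ← ENNReal.ofReal_mul (by positivity), mul_pow,
    ← Real.exp_nat_mul, mul_comm s]
  congr 1; ring

end Vale.Agent.P171
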