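import Vale.Agent.P171.Main

open MeasureTheory Set Filter Topology
open scoped ENNReal

namespace Vale.Agent.P171

variable {K : ℝ} {a : ℕ → ℝ}

lemma cell_low {l : ℕ} (hl : 1 ≤ l) (y : E3) (i : Fin 3) : (l : ℝ) * cell l 0 y i ≤ y i := by
  have a1 := Int.ediv_mul_le ⌊y i⌋ (show (l : ℤ) ≠ 0 by omega)
  have a2 : ((⌊y i⌋ / l : ℤ) : ℝ) * l ≤ ⌊y i⌋ := by exact_mod_cast a1
  simp only [cell, Nat.cast_zero, add_zero]
  linarith [Int.floor_le (y i)]

lemma Xi_super (h : Ok K a) (μ : ℝ) {x L : ℝ} {l j : ℕ} (hx : 0 ≤ x) (hl : x + 3 ≤ l)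
    (hL : (j + 1) * l ≤ L) : Xi K a μ x ^ ((j + 1) ^ 3) ≤ Xi K a μ L := by
  have hl1 : 1 ≤ l := by
    have : (1 : ℝ) ≤ l := by linarith
    exact_mod_cast this
  let B : Set E3 := {y | cell l 0 y ∈ labs j} ∩ ⋂ i, {y | y i ≤ l * cell l 0 y i + x}
  have hB : MeasurableSet B := by
    refine (cell_meas l 0 (t := (labs j : Set (Fin 3 → ℤ)))
      (labs j).countable_toSet.measurableSet).inter (MeasurableSet.iInter fun i => ?_)
    refine measurableSet_le (by fun_prop) (Measurable.add_const (Measurable.const_mul ?_ _) _)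
    exact (Measurable.of_discrete (f := fun c : Fin 3 → ℤ => (c i : ℝ))).comp (cell_meas l 0)
  have hB2 : ∀ y ∈ B, ∀ i, y i ≤ l * cell l 0 y i + x := fun y hy i => mem_iInter.mp hy.2 i
  have hsub : B ⊆ box L := by
    intro y hy i
    have h1 := Finset.mem_Icc.mp (Fintype.mem_piFinset.mp hy.1 i)
    have h2 : (0 : ℝ) ≤ cell l 0 y i := by exact_mod_cast h1.1
    have h3 : (cell l 0 y i : ℝ) ≤ j := by exact_mod_cast h1.2
    have h4 := cell_low hl1 y i
    have h5 := hB2 y hy i
    constructor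
    · exact le_trans (by positivity) h4
    · nlinarith
  have hw := MW_w0 K h.toAd
  have hm : ∀ c, MeasF fun m => G (w0 K a) (μ + K / 2) (m.filter (cell l 0 · = c)) :=
    fun c => hw.G_filter _ (cell_set _ 0 c)
  refine le_trans ?_ (I_mono (μ := volume.restrict B)
    (f := fun m => ∏ c ∈ labs j, G (w0 K a) (μ + K / 2) (m.filter (cell l 0 · = c)))
    (Measure.restrict_mono_set _ hsub) (ae_restrict_mem hB) (MeasF.prod _ hm) (hw.G _)
    fun m hm => ?_)
  · rw [I_prod (cell l 0) (cell_set _ 0) hm (fun c m y hy => by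
      simp only [Multiset.filter_cons_of_neg (p := (cell l 0 · = c)) m hy]) _
      (volume.restrict B) ((ae_restrict_mem hB).mono fun y hy => hy.1), ← card_labs]
    refine Finset.pow_card_le_prod _ _ _ fun c hc => ?_
    let v : E3 := WithLp.toLp 2 fun i => ((l * c i : ℤ) : ℝ)
    have hc1 : ∀ y ∈ box x, cell l 0 (y + v) = c := by
      intro y hy
      funext i
      have h0 : 0 ≤ ⌊y i⌋ := Int.floor_nonneg.mpr (hy i).1
      have h1 : ⌊y i⌋ < l := Int.floor_lt.mpr (by push_cast; linarith [(hy i).2])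
      simp only [cell, PiLp.add_apply, v, Int.floor_add_intCast, Nat.cast_zero, add_zero]
      rw [Int.add_mul_ediv_left _ _ (by omega), Int.ediv_eq_zero_of_lt h0 h1, zero_add]
    refine I_le (T := fun y => y + v) (by fun_prop) ?_ (mu_ae x) (hw.G _) (hm c) fun m hm => ?_
    · refine Measure.le_iff.mpr fun S hS => ?_
      rw [Measure.map_apply (by fun_prop) hS, mu,
        Measure.restrict_apply (measurable_add_const v hS), Measure.restrict_apply hS,
        Measure.restrict_apply (hS.inter (cell_set l 0 c)),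
        ← measure_preimage_add_right volume v (S ∩ _ ∩ B)]
      refine measure_mono ?_
      rintro y ⟨h1, h2⟩
      refine ⟨⟨h1, hc1 y h2⟩, by simpa [hc1 y h2] using hc, mem_iInter.mpr fun i => ?_⟩
      simp only [mem_ofPred_eq, hc1 y h2, PiLp.add_apply, v]
      push_cast
      linarith [(h2 i).2]
    · rw [(Multiset.filter_eq_self (p := (cell l 0 · = c))).mpr (by
        intro y hy
        obtain ⟨z, hz, rfl⟩ := Multiset.mem_map.mp hy
        exact hc1 z (hm z hz))]
      refine le_of_eq ?_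
      have : ∀ y y' : E3, w0 K a (y + v) (y' + v) = w0 K a y y' := fun y y' => by
        simp [w0, nr, psi]
      simp only [G, D2, Multiset.map_map, Multiset.card_map, Function.comp_def, this]
  · simp only [G]
    rw [← ENNReal.ofReal_prod_of_nonneg fun _ _ => by positivity, ← Real.exp_sum,
      sum_cells _ _ _ _ _ fun y hy => (hm y hy).1]
    refine ENNReal.ofReal_le_ofReal (Real.exp_le_exp.mpr (add_le_add_left
      (D2_mono_mem m fun y hy y' hy' => ?_) _))
    unfold sm
    split_ifs with h1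
    · simp
    have : ¬ dist y y' ≤ 2 := by
      intro h2
      refine h1 (funext fun i => ?_)
      have b := (PiLp.dist_apply_le y y' i).trans h2
      rw [Real.dist_eq, abs_le] at b
      have c1 := cell_low hl1 y i
      have c2 := cell_low hl1 y' i
      have c3 := hB2 y (hm y hy) i
      have c4 := hB2 y' (hm y' hy') i
      by_contra hne
      rcases lt_or_gt_of_ne hne with h3 | h3
      · have : (cell l 0 y i : ℝ) + 1 ≤ cell l 0 y' i := by exact_mod_cast h3
        nlinarith
      · have : (cell l 0 y' i : ℝ) + 1 ≤ cell l 0 y i := by exact_mod_cast h3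
        nlinarith
    have h3 := h.toAd.psr_nonneg (dist y y')
    simp [w0, nr, this, psi, h3]

theorem pr_tendsto (h : Ok K a) (μ : ℝ) : Tendsto (pr K a μ) atTop (𝓝 (P K a μ)) := by
  refine tendsto_order.2 ⟨fun x hx => ?_, fun x hx =>
    eventually_lt_of_limsup_lt hx (pr_bdd h μ)⟩
  rcases lt_or_ge x 0 with h0 | h0
  · exact (pr_nonneg h μ).mono fun L hL => h0.trans_le hL
  obtain ⟨z, hz1, hz2⟩ := exists_between hx
  have hz0 : 0 ≤ z := by linarith
  have t1 : Tendsto (fun s : ℝ => z * (1 - 4 * (s + 4)⁻¹) ^ 3) atTop (𝓝 z) := by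
    have : Continuous fun u : ℝ => z * (1 - 4 * u) ^ 3 := by fun_prop
    simpa [Function.comp_def] using (this.tendsto 0).comp
      (tendsto_inv_atTop_zero.comp (tendsto_atTop_add_const_right _ 4 tendsto_id))
  obtain ⟨s, s1, s2, s3⟩ := ((frequently_lt_of_lt_limsup
    (isCoboundedUnder_le_of_eventually_le atTop (pr_nonneg h μ)) hz2).and_eventually
    ((t1.eventually (lt_mem_nhds hz1)).and (eventually_ge_atTop 1))).exists
  have e1 : 1 - 4 * (s + 4)⁻¹ = s / (s + 4) := by field_simp; ring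
  rw [e1] at s2
  have t2 : Tendsto (fun L : ℝ => z * (s / (s + 4) - s * L⁻¹) ^ 3) atTop
      (𝓝 (z * (s / (s + 4)) ^ 3)) := by
    have : Continuous fun u : ℝ => z * (s / (s + 4) - s * u) ^ 3 := by fun_prop
    simpa [Function.comp_def] using (this.tendsto 0).comp tendsto_inv_atTop_zero
  filter_upwards [t2.eventually (lt_mem_nhds s2), eventually_ge_atTop (s + 4)] with L h1 h2
  have hL : 0 < L := by linarith
  refine h1.trans_le ((le_pr_iff h hL).mpr ?_)
  set l := ⌈s⌉₊ + 3 with hl
  have l1 : s + 3 ≤ l := by rw [hl]; push_cast; linarith [Nat.le_ceil s]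
  have l2 : (l : ℝ) ≤ s + 4 := by
    rw [hl]; push_cast; linarith [Nat.ceil_lt_add_one (show 0 ≤ s by linarith)]
  have l0 : (0 : ℝ) < l := by linarith
  obtain ⟨j, hj⟩ : ∃ j, ⌊L / l⌋₊ = j + 1 := Nat.exists_eq_succ_of_ne_zero (by
    rw [Ne, Nat.floor_eq_zero, not_lt, le_div_iff₀ l0]; linarith)
  have j1 : ((j : ℝ) + 1) * l ≤ L := by
    have := Nat.floor_le (a := L / l) (by positivity)
    rw [hj, le_div_iff₀ l0] at this; exact_mod_cast this
  have j2 : L / (s + 4) ≤ (j : ℝ) + 1 + 1 := by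
    have := Nat.lt_floor_add_one (L / l)
    rw [hj] at this
    have h3 : L / (s + 4) ≤ L / l := by gcongr
    push_cast at this; linarith
  refine le_trans ?_ (Xi_super h μ (x := s) (by linarith) l1 j1)
  refine le_trans ?_ (pow_le_pow_left' ((le_pr_iff h (by linarith)).mp s1.le) _)
  rw [← ENNReal.ofReal_pow (by positivity), ← Real.exp_nat_mul]
  refine ENNReal.ofReal_le_ofReal (Real.exp_le_exp.mpr ?_)
  have e2 : L ^ 3 * (z * (s / (s + 4) - s * L⁻¹) ^ 3) = z * (s * (L / (s + 4) - 1)) ^ 3 := by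
    field_simp
  have e3 : 0 ≤ L / (s + 4) - 1 := by rw [sub_nonneg, le_div_iff₀ (by linarith)]; linarith
  rw [e2]
  push_cast
  calc _ ≤ z * (s * ((j : ℝ) + 1)) ^ 3 := by gcongr; linarith
    _ = _ := by ring

end Vale.Agent.P171
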