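import Vale.Agent.P171.Part

open MeasureTheory Set Filter Topology
open scoped ENNReal

namespace Vale.Agent.P171

noncomputable def pr (K : ℝ) (a : ℕ → ℝ) (μ L : ℝ) : ℝ :=
  (L ^ 3)⁻¹ * Real.log (Xi K a μ L).toReal

noncomputable def P (K : ℝ) (a : ℕ → ℝ) (μ : ℝ) : ℝ := limsup (pr K a μ) atTop

variable {K : ℝ} {a : ℕ → ℝ}

lemma Xi_real (h : Ok K a) (μ : ℝ) {L : ℝ} (hL : 0 ≤ L) :
    Xi K a μ L = ENNReal.ofReal (Real.exp (Real.log (Xi K a μ L).toReal)) := by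
  have h1 : Xi K a μ L ≠ ⊤ := ne_top_of_le_ne_top ENNReal.ofReal_ne_top (Xi_le h μ hL)
  have h2 : Xi K a μ L ≠ 0 := (lt_of_lt_of_le one_pos (one_le_IG _ _ _)).ne'
  rw [Real.exp_log (ENNReal.toReal_pos h2 h1), ENNReal.ofReal_toReal h1]

lemma pr_le_iff (h : Ok K a) {μ L p : ℝ} (hL : 0 < L) :
    pr K a μ L ≤ p ↔ Xi K a μ L ≤ ENNReal.ofReal (Real.exp (L ^ 3 * p)) := by
  rw [pr, inv_mul_le_iff₀ (by positivity)]
  conv_rhs => rw [Xi_real h μ hL.le, ENNReal.ofReal_le_ofReal_iff (by positivity), Real.exp_le_exp]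

lemma le_pr_iff (h : Ok K a) {μ L p : ℝ} (hL : 0 < L) :
    p ≤ pr K a μ L ↔ ENNReal.ofReal (Real.exp (L ^ 3 * p)) ≤ Xi K a μ L := by
  rw [pr, le_inv_mul_iff₀ (by positivity)]
  conv_rhs => rw [Xi_real h μ hL.le, ENNReal.ofReal_le_ofReal_iff (by positivity), Real.exp_le_exp]

lemma pr_nonneg (h : Ok K a) (μ : ℝ) : ∀ᶠ L in atTop, 0 ≤ pr K a μ L :=
  (eventually_gt_atTop 0).mono fun L hL => (le_pr_iff h hL).mpr (by
    simpa [Xi] using one_le_IG _ _ _)

lemma pr_bdd (h : Ok K a) (μ : ℝ) : IsBoundedUnder (· ≤ ·) atTop (pr K a μ) :=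
  ⟨Real.exp (μ + K / 2), (eventually_gt_atTop 0).mono fun L hL =>
    (pr_le_iff h hL).mpr (Xi_le h μ hL.le)⟩

lemma P_nonneg (h : Ok K a) (μ : ℝ) : 0 ≤ P K a μ :=
  le_limsup_of_frequently_le (pr_nonneg h μ).frequently (pr_bdd h μ)

lemma P_ev (h : Ok K a) (μ : ℝ) {e : ℝ} (he : 0 < e) : ∀ᶠ L in atTop, pr K a μ L ≤ P K a μ + e :=
  (eventually_lt_of_limsup_lt (by simpa [P] using he) (pr_bdd h μ)).mono fun _ => le_of_lt

lemma P_le (h : Ok K a) {μ X : ℝ} (hX : ∀ e > 0, ∀ᶠ L in atTop, pr K a μ L ≤ X + e) :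
    P K a μ ≤ X :=
  le_of_forall_pos_le_add fun e he => limsup_le_of_le
    (isCoboundedUnder_le_of_eventually_le atTop (pr_nonneg h μ)) (hX e he)

lemma P_low (h : Ok K a) (μ : ℝ) : μ / 64 + (∑' k, a k) / 65536 ≤ P K a μ := by
  refine le_of_tendsto' (((h.sum.hasSum.tendsto_sum_nat).div_const 65536).const_add (μ / 64))
    fun K0 => le_limsup_of_frequently_le ?_ (pr_bdd h μ)
  have ht : Tendsto (fun j : ℕ => (4 * j : ℝ)) atTop atTop :=
    tendsto_natCast_atTop_atTop.const_mul_atTop (by norm_num)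
  refine ht.frequently (Eventually.frequently ?_)
  filter_upwards [eventually_ge_atTop 1, eventually_ge_atTop K0] with j h1 h2
  exact (le_pr_iff h (by positivity)).mpr (Xi_ge h μ h1 h2)

lemma P_zero (h : Ok K 0) : P K 0 0 ≤ 1 := by
  refine P_le h fun e he => (eventually_gt_atTop 0).mono fun L hL =>
    le_trans ((pr_le_iff h hL).mpr ?_) (le_add_of_nonneg_right he.le)
  have := I_exp (mu L) (by positivity) (mu_univ hL.le) 0
  rw [Real.exp_zero, mul_comm] at this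
  rw [← this]
  refine I_mono le_rfl (mu_ae L) ((MW_w0 K h.toAd).G _) (expc_meas _) fun m _ => ?_
  refine ENNReal.ofReal_le_ofReal (Real.exp_le_exp.mpr ?_)
  have h1 : (m.card : ℝ) ≤ D2 (nr 1) m := by
    obtain ⟨N, x, rfl⟩ := exists_conf m
    rw [D2_conf, card_conf]
    calc (N : ℝ) = ∑ i, nr 1 (x i) (x i) := by simp [nr]
      _ ≤ _ := Finset.sum_le_sum fun i _ => Finset.single_le_sum (f := fun j => nr 1 (x i) (x j))
        (fun j _ => nr_nonneg _ _ _) (Finset.mem_univ i)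
  have h2 := h.toAd.D2_le m
  simp only [Pi.zero_apply, tsum_zero, mul_zero, zero_mul] at h2
  rw [D2_w0]
  nlinarith [h.K_pos]

lemma three_le {e : ℝ} (he : 0 < e) : ∀ᶠ L : ℝ in atTop, 3 ≤ Real.exp (L ^ 3 * e) :=
  (Real.tendsto_exp_atTop.comp ((tendsto_pow_atTop (by norm_num)).atTop_mul_const he)
    ).eventually_ge_atTop 3

lemma absorb {x y z : ℝ} (h : 3 ≤ Real.exp y) (hz : x + y ≤ z) :
    ENNReal.ofReal (3 * Real.exp x) ≤ ENNReal.ofReal (Real.exp z) := by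
  refine ENNReal.ofReal_le_ofReal (le_trans ?_ (Real.exp_le_exp.mpr hz))
  rw [Real.exp_add, mul_comm]; gcongr

lemma P_lip {b : ℕ → ℝ} (h : Ok K a) (hb : Ok K b) (hab : a ≤ b) {μ B δ : ℝ} (hB : μ + K / 2 ≤ B)
    (hB0 : 0 ≤ B) (hδ : 125 / 2 * ((∑' k, b k) - ∑' k, a k) ≤ δ) (hδ0 : 0 ≤ δ) (hδ1 : δ ≤ 1) :
    P K b μ ≤ P K a μ + δ * (32 * B ^ 2 + 2) := by
  have hd : Ad (b - a) := ⟨fun k => sub_nonneg.mpr (hab k), hb.sum.sub h.sum⟩
  refine P_le hb fun e he => ?_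
  filter_upwards [eventually_ge_atTop 1, P_ev h μ (half_pos he), three_le (half_pos he)]
    with L hL h1 h2
  have h3 := (pr_le_iff h (by linarith)).mp h1
  have h4 := good_bad h (τ := 0) (η := 0) (ρ := 0) hL hB hB0 hδ0 le_rfl (by linarith) (by simp)
    le_rfl (by linarith [P_nonneg h μ]) h3 (by simpa using h3)
  refine (pr_le_iff hb (by linarith)).mpr (le_trans (le_trans ?_ h4) (absorb h2 (by linarith)))
  refine I_mono le_rfl (mu_ae L) ((MW_w0 K hb.toAd).G _) ((MW_wf K h.toAd _ _).G _) fun m _ => ?_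
  refine ENNReal.ofReal_le_ofReal (Real.exp_le_exp.mpr ?_)
  have e1 : D2 (psi b) m = D2 (psi a) m + D2 (psi (b - a)) m := by
    refine (hb.toAd.hasSum m).unique ?_
    convert (h.toAd.hasSum m).add (hd.hasSum m) using 2
    simp only [Pi.sub_apply]; ring
  have e2 := hd.D2_le m
  have e3 : ∑' k, (b - a) k = (∑' k, b k) - ∑' k, a k := hb.sum.tsum_sub h.sum
  have e4 := mul_le_mul_of_nonneg_right hδ (V_nonneg m)
  rw [D2_wf, D2_w0, D2_w0, e1]
  rw [e3] at e2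
  simp only [zero_div, zero_mul]
  linarith

lemma P_step {A : ℝ} (hK : K = 125 * A + 4) (h : Ok K a) (hA : ∑' k, a k < A) {μ η r : ℝ}
    (hη : 0 < η) (hr : 0 < r) (hP : P K a (μ + η) ≤ P K a μ + η * (2 * r)) :
    ∃ k t, 0 < t ∧ Ok K (bump a k t) ∧ P K (bump a k t) μ ≤ P K a μ + 500 * r ^ 2 * t := by
  set B := |μ + K / 2|
  set D := 32 * B ^ 2 + 2 with hD
  have hD0 : 0 < D := by positivity
  obtain ⟨t, ht, t1, t2, t3⟩ : ∃ t : ℝ, 0 < t ∧ t ≤ A - ∑' k, a k ∧ t ≤ η / (1000 * D) ∧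
      t ≤ 1 / 1000 := ⟨min (A - ∑' k, a k) (min (η / (1000 * D)) (1 / 1000)),
    lt_min (by linarith) (by positivity), min_le_left _ _,
    (min_le_right _ _).trans (min_le_left _ _), (min_le_right _ _).trans (min_le_right _ _)⟩
  have he : 0 < 50 * r ^ 2 * t := by positivity
  set e := 50 * r ^ 2 * t with hed
  have hn : Tendsto (fun k : ℕ => ((k + 1 : ℕ) : ℝ)) atTop atTop :=
    tendsto_natCast_atTop_atTop.comp (tendsto_add_atTop_nat 1)
  have hc : Tendsto (fun k : ℕ => 125 / 2 * ∑' j, cut a (k + 1) j) atTop (𝓝 0) := by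
    simpa using (h.toAd.cut_lim.comp (tendsto_add_atTop_nat 1)).const_mul (125 / 2)
  obtain ⟨k, k1, k2, k3, k4, k5⟩ := ((hc.eventually (ge_mem_nhds (show (0 : ℝ) < 1 / 2 by norm_num))).and
    ((hc.eventually (ge_mem_nhds (show (0 : ℝ) < e / D by positivity))).and
    ((hn.eventually (P_ev h μ he)).and ((hn.eventually (P_ev h (μ + η) he)).and
    (hn.eventually (three_le he)))))).exists
  have hok : Ok K (bump a k t) := ⟨h.toAd.bump k ht.le, by
    rw [(h.toAd.bump_sum k t).tsum_eq]; linarith⟩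
  refine ⟨k, t, ht, hok, ?_⟩
  set l : ℝ := ((k + 1 : ℕ) : ℝ) with hl
  have hl1 : 1 ≤ l := by simp [hl]
  have hp0 := P_nonneg h μ
  rw [le_div_iff₀ (by positivity)] at t2 k2
  have h1 := good_bad h (μ := μ) (L := l) (δ := 125 / 2 * ∑' j, cut a (k + 1) j)
    (τ := 125 / 2 * t) (B := B) (η := η) (ρ := 2 * r) (p := P K a μ + e) hl1 (le_abs_self _)
    (abs_nonneg _) (mul_nonneg (by norm_num) (tsum_nonneg (h.toAd.cut _).pos)) (by positivity)
    (by linarith) (by linarith) (by positivity) (by positivity)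
    ((pr_le_iff h (by linarith)).mp k3) ((pr_le_iff h (by linarith)).mp (by linarith))
  set X := P K a μ + 400 * r ^ 2 * t with hX
  have hX0 : 0 ≤ X := by positivity
  have h2 := h1.trans (absorb (z := l ^ 3 * X) k5 (by
    rw [← mul_add]; gcongr; rw [← hD]; nlinarith))
  refine le_trans (P_le hok (X := X) fun ε hε => ?_) (by nlinarith)
  have hlim : Tendsto (fun L : ℝ => l * L⁻¹ ^ 3 + X * (1 + 2 * l * L⁻¹) ^ 3) atTop (𝓝 X) := by
    have : Continuous fun u : ℝ => l * u ^ 3 + X * (1 + 2 * l * u) ^ 3 := by fun_prop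
    simpa [Function.comp_def] using (this.tendsto 0).comp tendsto_inv_atTop_zero
  filter_upwards [eventually_gt_atTop 0, hlim.eventually (ge_mem_nhds (show X < X + ε by linarith))]
    with L hL h3
  refine (pr_le_iff hok hL).mpr ((Xi_cells h k ht.le μ L).trans ?_)
  refine (mul_le_mul_right (pow_le_pow_left' h2 _) _).trans ?_
  rw [← ENNReal.ofReal_pow (by positivity), ← ENNReal.ofReal_natCast,
    ← ENNReal.ofReal_mul (by positivity), ← Real.exp_nat_mul]
  refine ENNReal.ofReal_le_ofReal ?_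
  have a1 : l ≤ Real.exp l := by linarith [Real.add_one_le_exp l]
  have a2 : ((⌊(L + l) / l⌋₊ : ℝ) + 1) * l ≤ L + 2 * l := by
    have := Nat.floor_le (a := (L + l) / l) (by positivity)
    rw [le_div_iff₀ (by positivity)] at this; linarith
  have a3 := pow_le_pow_left₀ (by positivity) a2 3
  refine (mul_le_mul_of_nonneg_right a1 (by positivity)).trans ?_
  rw [← Real.exp_add, Real.exp_le_exp]
  have a4 : L ^ 3 * (l * L⁻¹ ^ 3 + X * (1 + 2 * l * L⁻¹) ^ 3) = l + X * (L + 2 * l) ^ 3 := by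
    field_simp
  have a5 := mul_le_mul_of_nonneg_left h3 (by positivity : 0 ≤ L ^ 3)
  have a6 := mul_le_mul_of_nonneg_left a3 hX0
  rw [mul_pow] at a6
  rw [Nat.cast_pow, Nat.cast_add, Nat.cast_one]
  linarith

theorem kink : ∃ K a, Ok K a ∧ ¬ Differentiable ℝ (P K a) := by
  by_contra hcon
  push Not at hcon
  obtain ⟨r, hr⟩ : ∃ r : ℝ, r = 1 / 1024000 := ⟨_, rfl⟩
  obtain ⟨A, hA⟩ : ∃ A : ℝ, A = 4194304000 := ⟨_, rfl⟩
  obtain ⟨K, hK⟩ : ∃ K : ℝ, K = 125 * A + 4 := ⟨_, rfl⟩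
  let S : Set (ℕ → ℝ) := {a | Ok K a ∧ ∀ ε > 0, ∃ μ,
    P K a μ - r * μ ≤ 1 + 500 * r ^ 2 * (∑' k, a k) + ε}
  have ok0 : Ok K 0 := ⟨⟨fun _ => le_rfl, summable_zero⟩, by simp [hK, hA]⟩
  have h0 : (0 : ℕ → ℝ) ∈ S := ⟨ok0, fun ε hε => ⟨0, by
    have := P_zero ok0; simp; linarith⟩⟩
  have hmass : ∀ a, Ok K a → ∑' k, a k ≤ A := fun a h => by linarith [h.big]
  obtain ⟨a, -, hmax⟩ := zorn_le_nonempty₀ S (fun c hc hch y hy => by
    let s : ℕ → ℝ := fun k => sSup ((fun a : ℕ → ℝ => a k) '' c)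
    have hbd : ∀ k, BddAbove ((fun a : ℕ → ℝ => a k) '' c) := fun k => ⟨A, by
      rintro _ ⟨a, ha, rfl⟩
      exact ((hc ha).1.sum.le_tsum k fun j _ => (hc ha).1.pos j).trans (hmass a (hc ha).1)⟩
    have hub : ∀ a ∈ c, a ≤ s := fun a ha k => le_csSup (hbd k) ⟨a, ha, rfl⟩
    have happ : ∀ (F : Finset ℕ) (ε : ℝ), 0 < ε → ∃ a ∈ c, ∑ k ∈ F, s k ≤ ∑ k ∈ F, a k + ε := by
      intro F
      induction F using Finset.induction_on with
      | empty => intro ε hε; exact ⟨y, hy, by simp [hε.le]⟩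
      | insert k F hk ih =>
        intro ε hε
        obtain ⟨a, ha, h1⟩ := ih _ (half_pos hε)
        obtain ⟨_, ⟨b, hb, rfl⟩, h2⟩ := exists_lt_of_lt_csSup
          (s := (fun a : ℕ → ℝ => a k) '' c) ⟨_, y, hy, rfl⟩ (show s k - ε / 2 < s k by linarith)
        obtain ⟨d, hd, h3, h4⟩ := hch.directedOn a ha b hb
        refine ⟨d, hd, ?_⟩
        have h5 : ∑ k ∈ F, a k ≤ ∑ k ∈ F, d k := Finset.sum_le_sum fun k _ => h3 k
        have h6 : b k ≤ d k := h4 k
        simp only [Finset.sum_insert hk] at h2 ⊢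
        linarith
    have hs0 : ∀ k, 0 ≤ s k := fun k => ((hc hy).1.pos k).trans (hub y hy k)
    have hfin : ∀ F : Finset ℕ, ∑ k ∈ F, s k ≤ A := fun F =>
      le_of_forall_pos_le_add fun ε hε => by
        obtain ⟨a, ha, h1⟩ := happ F ε hε
        have := (hc ha).1.sum.sum_le_tsum F fun j _ => (hc ha).1.pos j
        linarith [hmass a (hc ha).1]
    have hsum : Summable s := summable_of_sum_le hs0 hfin
    have hoks : Ok K s := ⟨⟨hs0, hsum⟩, by
      have := hsum.tsum_le_of_sum_le hfin; linarith⟩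
    refine ⟨s, ⟨hoks, fun ε hε => ?_⟩, hub⟩
    set B : ℝ := 128 * (2 + 500 * r ^ 2 * A) + K / 2 with hB
    have hB0 : 0 ≤ B := by rw [hB, hK, hA]; positivity
    obtain ⟨δ, d0, d1, d2⟩ : ∃ δ : ℝ, 0 < δ ∧ δ ≤ 1 ∧ δ ≤ ε / 2 / (32 * B ^ 2 + 2) :=
      ⟨min 1 _, lt_min one_pos (by positivity), min_le_left _ _, min_le_right _ _⟩
    rw [le_div_iff₀ (by positivity)] at d2
    obtain ⟨n, hn⟩ := (hsum.hasSum.tendsto_sum_nat.eventually
      (le_mem_nhds (show ∑' k, s k - δ / 125 < ∑' k, s k by linarith))).exists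
    obtain ⟨a, ha, h1⟩ := happ (Finset.range n) (δ / 125) (by positivity)
    have h2 := (hc ha).1.sum.sum_le_tsum (Finset.range n) fun j _ => (hc ha).1.pos j
    obtain ⟨μ, hμ⟩ := (hc ha).2 (min 1 (ε / 2)) (lt_min one_pos (half_pos hε))
    have h3 := P_low (hc ha).1 μ
    have h4 : 0 ≤ ∑' k, a k := tsum_nonneg (hc ha).1.pos
    have h5 := hmass a (hc ha).1
    have h6 := min_le_left 1 (ε / 2)
    have h7 := min_le_right 1 (ε / 2)
    have h8 : ∑' k, a k ≤ ∑' k, s k := (hc ha).1.sum.tsum_le_tsum (hub a ha) hsum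
    have h9 := P_lip (hc ha).1 hoks (hub a ha) (μ := μ) (B := B) (δ := δ) (by
      rw [hB]; rw [hr] at hμ ⊢; nlinarith) hB0 (by linarith) d0.le d1
    refine ⟨μ, ?_⟩
    have : 500 * r ^ 2 * ∑' k, a k ≤ 500 * r ^ 2 * ∑' k, s k := by gcongr
    linarith) 0 h0
  have hok := hmax.prop.1
  have hdiff := hcon K a hok
  have hr0 : 0 < r := by rw [hr]; norm_num
  have hco : ∀ μ, r * |μ| ≤ P K a μ - r * μ := by
    intro μ
    have h1 := P_low hok μ
    have h2 := P_nonneg hok μ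
    have h4 : 0 ≤ ∑' k, a k := tsum_nonneg hok.pos
    rcases abs_cases μ with h | h <;> rw [h.1, hr] <;> linarith [h.2]
  obtain ⟨μ, hμ⟩ := (show Continuous fun μ => P K a μ - r * μ from
    hdiff.continuous.sub (by fun_prop)).exists_forall_le (tendsto_atTop_mono hco
      (Tendsto.const_mul_atTop hr0 (tendsto_norm_cocompact_atTop (E := ℝ))))
  have hval : P K a μ - r * μ ≤ 1 + 500 * r ^ 2 * (∑' k, a k) :=
    le_of_forall_pos_le_add fun ε hε => by
      obtain ⟨μ', h⟩ := hmax.prop.2 ε hε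
      exact (hμ μ').trans h
  rcases (hmass a hok).eq_or_lt with hm | hm
  · have h1 := P_low hok μ
    have h2 := P_nonneg hok μ
    rw [hm, hA] at h1 hval
    rw [hr] at hval
    linarith
  · have hd : HasDerivAt (P K a) r μ := by
      have h1 : HasDerivAt (fun μ => P K a μ - r * μ) (deriv (P K a) μ - r * 1) μ :=
        (hdiff μ).hasDerivAt.sub ((hasDerivAt_id μ).const_mul r)
      have h2 := IsLocalMin.hasDerivAt_eq_zero (Eventually.of_forall hμ) h1
      have h3 := (hdiff μ).hasDerivAt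
      rwa [show deriv (P K a) μ = r by linarith] at h3
    obtain ⟨η, h1, h2⟩ := (((hasDerivAt_iff_tendsto_slope_zero.mp hd).mono_left
      (nhdsGT_le_nhdsNE 0)).eventually (ge_mem_nhds (show r < 2 * r by linarith)) |>.and
      self_mem_nhdsWithin).exists
    have hη : 0 < η := h2
    rw [smul_eq_mul, inv_mul_le_iff₀ hη] at h1
    obtain ⟨k, t, ht, hb, h3⟩ := P_step (μ := μ) hK hok hm hη hr0 (by linarith)
    have hle : a ≤ bump a k t := fun j => by
      simp only [bump]; split_ifs <;> linarith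
    have := hmax.le_of_ge (y := bump a k t) ⟨hb, fun ε hε => ⟨μ, by
      rw [(hok.toAd.bump_sum k t).tsum_eq]; linarith⟩⟩ hle k
    simp [bump] at this
    linarith

end Vale.Agent.P171
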