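import Vale.Agent.P171.Comb

open MeasureTheory Set Filter
open scoped ENNReal

namespace Vale.Agent.P171

noncomputable def G (w : E3 → E3 → ℝ) (s : ℝ) (m : Multiset E3) : ℝ≥0∞ :=
  ENNReal.ofReal (Real.exp (D2 w m + s * m.card))

def MW (w : E3 → E3 → ℝ) : Prop := Measurable fun p : E3 × E3 => w p.1 p.2

lemma MW.D2 {w : E3 → E3 → ℝ} (hw : MW w) (N : ℕ) :
    Measurable fun x : Fin N → E3 => D2 w (conf x) := by
  simp only [D2_conf]
  exact Finset.measurable_sum _ fun i _ => Finset.measurable_sum _ fun j _ =>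
    Measurable.comp (f := fun x : Fin N → E3 => (x i, x j)) hw
      ((measurable_pi_apply i).prodMk (measurable_pi_apply j))

lemma MW.G {w : E3 → E3 → ℝ} (hw : MW w) (s : ℝ) : MeasF (G w s) := fun N => by
  simp only [P171.G, card_conf]
  exact ((hw.D2 N).add_const _).exp.ennreal_ofReal

lemma card_filter_meas {p : E3 → Prop} [DecidablePred p] (hp : MeasurableSet {y | p y}) (N : ℕ) :
    Measurable fun x : Fin N → E3 => (((conf x).filter p).card : ℝ) := by
  simp only [card_filter_conf]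
  exact Finset.measurable_sum _ fun i _ =>
    Measurable.ite (measurable_pi_apply i hp) measurable_const measurable_const

lemma MW.G_filter {w : E3 → E3 → ℝ} (hw : MW w) (s : ℝ) {p : E3 → Prop} [DecidablePred p]
    (hp : MeasurableSet {y | p y}) : MeasF fun m => P171.G w s (m.filter p) := fun N => by
  simp only [P171.G, D2_filter]
  have h1 : MW fun y y' => if p y ∧ p y' then w y y' else 0 :=
    Measurable.ite ((measurable_fst hp).inter (measurable_snd hp)) hw measurable_const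
  exact ((h1.D2 N).add ((card_filter_meas hp N).const_mul s)).exp.ennreal_ofReal

lemma cell_meas (l σ : ℕ) : Measurable (cell l σ) := by
  refine measurable_pi_iff.mpr fun j => ?_
  exact (Measurable.of_discrete (f := fun u : ℤ => (u + σ) / l)).comp
    (Measurable.floor (by fun_prop))

lemma cell_set (l σ : ℕ) (c : Fin 3 → ℤ) : MeasurableSet {y | cell l σ y = c} :=
  cell_meas l σ (measurableSet_singleton c)

lemma MW_sm (l σ : ℕ) : MW (sm (cell l σ)) :=
  Measurable.ite (measurableSet_eq_fun ((cell_meas l σ).comp measurable_fst)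
    ((cell_meas l σ).comp measurable_snd)) measurable_const measurable_const

lemma MW_nr (k : ℕ) : MW (nr k) :=
  Measurable.ite (measurableSet_le (by fun_prop) measurable_const) measurable_const
    measurable_const

noncomputable def w0 (K : ℝ) (a : ℕ → ℝ) (y y' : E3) : ℝ :=
  -(K / 2) * nr 1 y y' + (1 / 2) * psi a y y'

noncomputable def wf (K : ℝ) (a : ℕ → ℝ) (δ τ : ℝ) (y y' : E3) : ℝ :=
  w0 K a y y' + δ * sm (cell 1 0) y y' + τ

lemma MW_w0 (K : ℝ) {a : ℕ → ℝ} (ha : Ad a) : MW (w0 K a) :=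
  ((MW_nr 1).const_mul _).add ((ha.psr_meas.comp (by fun_prop)).const_mul _)

lemma MW_wf (K : ℝ) {a : ℕ → ℝ} (ha : Ad a) (δ τ : ℝ) : MW (wf K a δ τ) :=
  ((MW_w0 K ha).add ((MW_sm 1 0).const_mul _)).add_const _

lemma D2_w0 (K : ℝ) (a : ℕ → ℝ) (m : Multiset E3) :
    D2 (w0 K a) m = -(K / 2) * D2 (nr 1) m + (1 / 2) * D2 (psi a) m := by
  rw [← D2_mul, ← D2_mul, ← D2_add]; rfl

lemma D2_wf (K : ℝ) (a : ℕ → ℝ) (δ τ : ℝ) (m : Multiset E3) :
    D2 (wf K a δ τ) m = D2 (w0 K a) m + δ * V m + τ * (m.card : ℝ) ^ 2 := by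
  rw [V, ← D2_mul, ← D2_add, ← D2_const, ← D2_add]; rfl

structure Ok (K : ℝ) (a : ℕ → ℝ) : Prop extends Ad a where
  big : 125 * (∑' k, a k) + 4 ≤ K

lemma Ok.K_pos {K : ℝ} {a : ℕ → ℝ} (h : Ok K a) : 0 < K := by
  have : 0 ≤ ∑' k, a k := tsum_nonneg h.pos
  linarith [h.big]

lemma Ok.stab {K : ℝ} {a : ℕ → ℝ} (h : Ok K a) (m : Multiset E3) : D2 (w0 K a) m ≤ -2 * V m := by
  have h1 : V m ≤ D2 (nr 1) m := D2_mono (sm_le_nr 1 le_rfl) m
  have h2 := h.toAd.D2_le m
  have h3 := V_nonneg m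
  rw [D2_w0]
  nlinarith [h.big, h.K_pos]

noncomputable def mu (L : ℝ) : Measure E3 := volume.restrict (box L)

instance (L : ℝ) : SigmaFinite (mu L) := by unfold mu; infer_instance

lemma box_eq (L : ℝ) : box L = WithLp.ofLp ⁻¹' Icc (fun _ => 0) (fun _ => L) := by
  ext x; simp [box, Pi.le_def, forall_and]

lemma box_meas (L : ℝ) : MeasurableSet (box L) := by
  rw [box_eq]; exact (PiLp.volume_preserving_ofLp (Fin 3)).measurable measurableSet_Icc

lemma mu_univ {L : ℝ} (hL : 0 ≤ L) : mu L univ = ENNReal.ofReal (L ^ 3) := by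
  rw [mu, Measure.restrict_apply_univ, box_eq, (PiLp.volume_preserving_ofLp (Fin 3)).measure_preimage
    measurableSet_Icc.nullMeasurableSet, Real.volume_Icc_pi, ENNReal.ofReal_pow hL]
  simp

lemma mu_ae (L : ℝ) : ∀ᵐ y ∂mu L, y ∈ box L := ae_restrict_mem (box_meas L)

noncomputable def Xi (K : ℝ) (a : ℕ → ℝ) (μ L : ℝ) : ℝ≥0∞ := I (mu L) (G (w0 K a) (μ + K / 2))

lemma expc_meas (s : ℝ) : MeasF fun m : Multiset E3 => ENNReal.ofReal (Real.exp (s * m.card)) :=
  fun N => by simp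

lemma one_le_IG (ν : Measure E3) [SigmaFinite ν] (w : E3 → E3 → ℝ) (s : ℝ) : 1 ≤ I ν (G w s) := by
  simpa [G, D2] using I_ge_zero ν (G w s)

variable {K : ℝ} {a : ℕ → ℝ}

lemma Xi_le (h : Ok K a) (μ : ℝ) {L : ℝ} (hL : 0 ≤ L) :
    Xi K a μ L ≤ ENNReal.ofReal (Real.exp (L ^ 3 * Real.exp (μ + K / 2))) := by
  rw [mul_comm, ← I_exp (mu L) (by positivity) (mu_univ hL)]
  refine I_mono le_rfl (mu_ae L) ((MW_w0 K h.toAd).G _) (expc_meas _) fun m _ => ?_
  refine ENNReal.ofReal_le_ofReal (Real.exp_le_exp.mpr ?_)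
  linarith [h.stab m, V_nonneg m]

lemma good_bad (h : Ok K a) {μ L δ τ B η ρ p : ℝ} (hL : 1 ≤ L) (hB : μ + K / 2 ≤ B) (hB0 : 0 ≤ B)
    (hδ : 0 ≤ δ) (hτ : 0 ≤ τ) (h1 : δ + 8 * τ ≤ 1) (h2 : 16 * (32 * B ^ 2 + 2) * τ ≤ η)
    (hρ : 0 ≤ ρ) (hp : 0 ≤ p) (x1 : Xi K a μ L ≤ ENNReal.ofReal (Real.exp (L ^ 3 * p)))
    (x2 : Xi K a (μ + η) L ≤ ENNReal.ofReal (Real.exp (L ^ 3 * (p + η * ρ)))) :
    I (mu L) (G (wf K a δ (τ / L ^ 3)) (μ + K / 2)) ≤
      ENNReal.ofReal (3 * Real.exp (L ^ 3 * (δ * (32 * B ^ 2 + 2) + τ * ρ ^ 2 + p))) := by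
  set D := 32 * B ^ 2 + 2 with hD
  have hD2 : 2 ≤ D := by rw [hD]; nlinarith
  have hW : 1 ≤ L ^ 3 := one_le_pow₀ hL
  set W := L ^ 3 with hWd
  have hη : 0 ≤ η := le_trans (by positivity) h2
  have m1 := (MW_w0 K h.toAd).G (μ + K / 2)
  have m2 := (MW_w0 K h.toAd).G (μ + η + K / 2)
  have key : I (mu L) (G (wf K a δ (τ / W)) (μ + K / 2)) ≤ I (mu L) fun m =>
      ENNReal.ofReal (Real.exp (W * (δ * D + τ * ρ ^ 2))) * (G (w0 K a) (μ + K / 2) m +
        ENNReal.ofReal (Real.exp (-(η * ρ * W))) * G (w0 K a) (μ + η + K / 2) m) +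
      ENNReal.ofReal (Real.exp (-W)) * ENNReal.ofReal (Real.exp (0 * m.card)) := by
    refine I_mono le_rfl (mu_ae L) ((MW_wf K h.toAd _ _).G _)
      (((MeasF.const _).mul (m1.add ((MeasF.const _).mul m2))).add
        ((MeasF.const _).mul (expc_meas _))) fun m hm => ?_
    have c1 := card_sq_box (k := 1) le_rfl (by simpa using hL) m hm
    simp only [Nat.cast_one, one_pow, mul_one] at c1
    change _ ≤ 8 * W * V m at c1
    have c2 := h.stab m
    have c3 := V_nonneg m
    have c4 : (0 : ℝ) ≤ m.card := by positivity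
    simp only [G, D2_wf]
    generalize (m.card : ℝ) = n at *
    generalize D2 (w0 K a) m = H at *
    by_cases hb : V m ≤ D * W
    · refine le_trans ?_ le_self_add
      have c5 : n ≤ 8 * D * W := by
        refine (pow_le_pow_iff_left₀ c4 (by positivity) two_ne_zero).mp ?_
        calc n ^ 2 ≤ 8 * W * (D * W) := c1.trans (by gcongr)
          _ = 1 * (8 * D * W ^ 2) := by ring
          _ ≤ (8 * D) * (8 * D * W ^ 2) := by gcongr; linarith
          _ = _ := by ring
      have c6 : δ * V m ≤ δ * (D * W) := by gcongr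
      by_cases hn : n ≤ ρ * W
      · refine le_trans ?_ (mul_le_mul_right le_self_add _)
        rw [← ENNReal.ofReal_mul (by positivity), ← Real.exp_add]
        refine ENNReal.ofReal_le_ofReal (Real.exp_le_exp.mpr ?_)
        have : τ / W * n ^ 2 ≤ τ / W * (ρ * W) ^ 2 := by gcongr
        have e : τ / W * (ρ * W) ^ 2 = W * (τ * ρ ^ 2) := by field_simp
        nlinarith
      · refine le_trans ?_ (mul_le_mul_right le_add_self _)
        rw [← ENNReal.ofReal_mul (by positivity), ← ENNReal.ofReal_mul (by positivity),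
          ← Real.exp_add, ← Real.exp_add]
        refine ENNReal.ofReal_le_ofReal (Real.exp_le_exp.mpr ?_)
        have e : τ / W * n ^ 2 = W * (τ * ρ ^ 2) + (τ * ((n + ρ * W) / W)) * (n - ρ * W) := by
          field_simp; ring
        have e2 : (n + ρ * W) / W ≤ 16 * D := by
          rw [div_le_iff₀ (by positivity)]; linarith
        have e3 : τ * ((n + ρ * W) / W) ≤ η := by nlinarith
        have e4 := mul_le_mul_of_nonneg_right e3 (by linarith : 0 ≤ n - ρ * W)
        nlinarith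
    · refine le_trans ?_ le_add_self
      rw [← ENNReal.ofReal_mul (by positivity), ← Real.exp_add]
      refine ENNReal.ofReal_le_ofReal (Real.exp_le_exp.mpr ?_)
      push Not at hb
      have c5 : 2 * B * n ≤ V m := by
        refine (pow_le_pow_iff_left₀ (by positivity) c3 two_ne_zero).mp ?_
        calc (2 * B * n) ^ 2 = 4 * B ^ 2 * n ^ 2 := by ring
          _ ≤ 4 * B ^ 2 * (8 * W * V m) := by gcongr
          _ = (32 * B ^ 2 * W) * V m := by ring
          _ ≤ V m * V m := by gcongr; nlinarith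
          _ = _ := by ring
      have c6 : τ / W * n ^ 2 ≤ 8 * τ * V m := by
        calc _ ≤ τ / W * (8 * W * V m) := by gcongr
          _ = _ := by field_simp
      have c7 : (μ + K / 2) * n ≤ B * n := by gcongr
      have c8 : (δ + 8 * τ) * V m ≤ 1 * V m := by gcongr
      nlinarith
  refine key.trans ?_
  rw [I_add _ ((MeasF.const _).mul (m1.add ((MeasF.const _).mul m2))),
    I_const_mul _ _ (m1.add ((MeasF.const _).mul m2)), I_add _ m1, I_const_mul _ _ m2,
    I_const_mul _ _ (expc_meas _), I_exp _ (by positivity) (mu_univ (by linarith))]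
  refine (add_le_add_left (mul_le_mul_right (add_le_add x1 (mul_le_mul_right x2 _)) _) _).trans ?_
  rw [← ENNReal.ofReal_mul (by positivity), ← ENNReal.ofReal_mul (by positivity),
    ← ENNReal.ofReal_add (by positivity) (by positivity), ← ENNReal.ofReal_mul (by positivity),
    ← ENNReal.ofReal_add (by positivity) (by positivity)]
  refine ENNReal.ofReal_le_ofReal ?_
  rw [← Real.exp_add, ← Real.exp_add, show -(η * ρ * W) + W * (p + η * ρ) = W * p by ring,
    mul_add, ← Real.exp_add, ← mul_add W, Real.exp_zero, one_mul, neg_add_cancel, Real.exp_zero]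
  have : 1 ≤ Real.exp (W * (δ * D + τ * ρ ^ 2 + p)) := Real.one_le_exp (by positivity)
  linarith

def bump (a : ℕ → ℝ) (k : ℕ) (t : ℝ) : ℕ → ℝ := fun j => a j + if j = k then t else 0

lemma Ad.bump_sum (ha : Ad a) (k : ℕ) (t : ℝ) : HasSum (bump a k t) (∑' j, a j + t) :=
  ha.sum.hasSum.add (hasSum_ite_eq k t)

lemma Ad.bump (ha : Ad a) (k : ℕ) {t : ℝ} (ht : 0 ≤ t) : Ad (bump a k t) :=
  ⟨fun j => add_nonneg (ha.pos j) (by split_ifs <;> simp [ht]), (ha.bump_sum k t).summable⟩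

lemma Ad.D2_bump (ha : Ad a) (k : ℕ) {t : ℝ} (ht : 0 ≤ t) (m : Multiset E3) :
    D2 (psi (P171.bump a k t)) m =
      D2 (psi a) m + t * (D2 (nr (k + 1)) m / ((k + 1 : ℕ) : ℝ) ^ 3) := by
  refine ((ha.bump k ht).hasSum m).unique ?_
  convert (ha.hasSum m).add (hasSum_ite_eq k (t * (D2 (nr (k + 1)) m / ((k + 1 : ℕ) : ℝ) ^ 3)))
    using 2 with j
  simp only [P171.bump]
  split_ifs with h
  · subst h; ring
  · simp

lemma decouple (h : Ok K a) (k : ℕ) {t : ℝ} (ht : 0 ≤ t) (m : Multiset E3) :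
    ∃ σ ∈ Finset.range (k + 1), D2 (w0 K (bump a k t)) m ≤
      D2 (fun y y' => wf K a (125 / 2 * ∑' j, cut a (k + 1) j) (125 / 2 * t / ((k + 1 : ℕ) : ℝ) ^ 3)
        y y' * sm (cell (k + 1) σ) y y') m := by
  obtain ⟨σ, hσ, h1⟩ := h.toAd.shift (l := k + 1) (by omega) m
  refine ⟨σ, hσ, ?_⟩
  have e : (fun y y' => wf K a (125 / 2 * ∑' j, cut a (k + 1) j)
      (125 / 2 * t / ((k + 1 : ℕ) : ℝ) ^ 3) y y' * sm (cell (k + 1) σ) y y') = fun y y' =>
      (-(K / 2) * (nr 1 y y' * sm (cell (k + 1) σ) y y') +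
        (1 / 2) * (psi a y y' * sm (cell (k + 1) σ) y y')) +
      ((125 / 2 * ∑' j, cut a (k + 1) j) * sm (cell 1 0) y y' +
        (125 / 2 * t / ((k + 1 : ℕ) : ℝ) ^ 3) * sm (cell (k + 1) σ) y y') := by
    funext y y'
    have : sm (cell 1 0) y y' * sm (cell (k + 1) σ) y y' = sm (cell 1 0) y y' := by
      unfold sm
      split_ifs with h1 h2
      · simp
      · refine absurd (funext fun j => ?_) h2
        have := congrFun h1 j
        simp only [cell, Nat.cast_zero, add_zero, Nat.cast_one, Int.ediv_one] at this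
        simp only [cell, this]
      · simp
      · simp
    simp only [wf, w0]
    linear_combination (125 / 2 * ∑' j, cut a (k + 1) j) * this
  rw [e, D2_add, D2_add, D2_add, D2_mul, D2_mul, D2_mul, D2_mul, D2_w0, h.toAd.D2_bump k ht]
  have h2 : D2 (fun y y' => nr 1 y y' * sm (cell (k + 1) σ) y y') m ≤ D2 (nr 1) m :=
    D2_mono (fun y y' => mul_le_of_le_one_right (nr_nonneg _ _ _) (sm_le _ _ _)) m
  have h3 := nr_le_cell (k + 1) σ (by omega) m
  have h4 : t * (D2 (nr (k + 1)) m / ((k + 1 : ℕ) : ℝ) ^ 3) ≤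
      t * (125 * D2 (sm (cell (k + 1) σ)) m / ((k + 1 : ℕ) : ℝ) ^ 3) := by gcongr
  have h5 := mul_le_mul_of_nonneg_left h2 h.K_pos.le
  change _ ≤ _ + (_ * V m + _)
  have e2 : 125 / 2 * t / ((k + 1 : ℕ) : ℝ) ^ 3 * D2 (sm (cell (k + 1) σ)) m =
      1 / 2 * (t * (125 * D2 (sm (cell (k + 1) σ)) m / ((k + 1 : ℕ) : ℝ) ^ 3)) := by ring
  rw [e2]
  linarith

lemma cell_le (ha : Ad a) (δ τ s L : ℝ) {l : ℕ} (hl : 1 ≤ l) (σ : ℕ) (c : Fin 3 → ℤ) :
    I ((mu L).restrict {y | cell l σ y = c}) (fun m => G (wf K a δ τ) s (m.filter (cell l σ · = c)))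
      ≤ I (mu l) (G (wf K a δ τ) s) := by
  let v : E3 := WithLp.toLp 2 fun j => ((σ - l * c j : ℤ) : ℝ)
  refine I_le (T := fun y => y + v) (by fun_prop) ?_ (ae_restrict_mem (cell_set l σ c))
    ((MW_wf K ha δ τ).G_filter s (cell_set l σ c)) ((MW_wf K ha δ τ).G s) fun m hm => ?_
  · refine Measure.le_iff.mpr fun S hS => ?_
    rw [Measure.map_apply (by fun_prop) hS, Measure.restrict_apply (measurable_add_const v hS),
      mu, mu, Measure.restrict_apply hS, ← measure_preimage_add_right volume v (S ∩ box l)]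
    refine (Measure.restrict_le_self _).trans (measure_mono ?_)
    rintro y ⟨h1, h2⟩
    refine ⟨h1, fun j => ?_⟩
    have h3 := congrFun h2 j
    simp only [cell] at h3
    have hl' : (0 : ℤ) < l := by omega
    have a1 := Int.ediv_mul_le (⌊y j⌋ + σ) hl'.ne'
    have a2 := Int.lt_ediv_add_one_mul_self (⌊y j⌋ + σ) hl'
    rw [h3] at a1 a2
    have b1 : (c j : ℝ) * l ≤ ⌊y j⌋ + σ := by exact_mod_cast a1
    have b2 : (⌊y j⌋ : ℝ) + σ + 1 ≤ (c j + 1) * l := by exact_mod_cast a2
    have := Int.floor_le (y j); have := Int.lt_floor_add_one (y j)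
    simp only [PiLp.add_apply, v]
    push_cast
    constructor <;> linarith
  · rw [(Multiset.filter_eq_self (p := (cell l σ · = c))).mpr hm]
    refine le_of_eq ?_
    simp only [G, D2, Multiset.map_map, Multiset.card_map, Function.comp_def]
    have : ∀ y y' : E3, wf K a δ τ (y + v) (y' + v) = wf K a δ τ y y' := by
      intro y y'
      have e : ∀ y : E3, cell 1 0 (y + v) = cell 1 0 y + fun j => (σ - l * c j : ℤ) := by
        intro y; funext j
        simp only [cell, PiLp.add_apply, v, Int.floor_add_intCast, Pi.add_apply]; simp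
      simp [wf, w0, nr, psi, sm, e]
    simp only [this]

lemma Xi_cells (h : Ok K a) (k : ℕ) {t : ℝ} (ht : 0 ≤ t) (μ L : ℝ) :
    Xi K (bump a k t) μ L ≤ (k + 1 : ℕ) * I (mu (k + 1 : ℕ))
      (G (wf K a (125 / 2 * ∑' j, cut a (k + 1) j) (125 / 2 * t / ((k + 1 : ℕ) : ℝ) ^ 3))
        (μ + K / 2)) ^ ((⌊(L + (k + 1 : ℕ)) / (k + 1 : ℕ)⌋₊ + 1) ^ 3) := by
  set w := wf K a (125 / 2 * ∑' j, cut a (k + 1) j) (125 / 2 * t / ((k + 1 : ℕ) : ℝ) ^ 3)
  set M := ⌊(L + (k + 1 : ℕ)) / (k + 1 : ℕ)⌋₊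
  have hw : MW w := MW_wf K h.toAd _ _
  have hm : ∀ σ c, MeasF fun m => G w (μ + K / 2) (m.filter (cell (k + 1) σ · = c)) :=
    fun σ c => hw.G_filter _ (cell_set _ σ c)
  have hin : ∀ σ ∈ Finset.range (k + 1), ∀ y ∈ box L, cell (k + 1) σ y ∈ labs M := by
    intro σ hσ y hy
    refine cell_mem (by omega) ?_ hy
    have := Nat.lt_floor_add_one ((L + (k + 1 : ℕ)) / (k + 1 : ℕ))
    rw [div_lt_iff₀ (by positivity)] at this
    have h2 : (σ : ℝ) ≤ (k + 1 : ℕ) := by exact_mod_cast (Finset.mem_range.mp hσ).le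
    linarith
  have h1 : Xi K (bump a k t) μ L ≤ I (mu L) fun m => ∑ σ ∈ Finset.range (k + 1),
      ∏ c ∈ labs M, G w (μ + K / 2) (m.filter (cell (k + 1) σ · = c)) := by
    refine I_mono le_rfl (mu_ae L) ((MW_w0 K (h.toAd.bump k ht)).G _)
      (fun N => Finset.measurable_sum _ fun σ _ => MeasF.prod _ (hm σ) N) fun m hm => ?_
    obtain ⟨σ, hσ, h2⟩ := decouple h k ht m
    refine le_trans ?_ (Finset.single_le_sum (f := fun σ =>
      ∏ c ∈ labs M, G w (μ + K / 2) (m.filter (cell (k + 1) σ · = c)))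
      (fun _ _ => zero_le) hσ)
    simp only [G]
    rw [← ENNReal.ofReal_prod_of_nonneg fun _ _ => by positivity, ← Real.exp_sum,
      sum_cells _ _ _ _ _ fun y hy => hin σ hσ y (hm y hy)]
    exact ENNReal.ofReal_le_ofReal (Real.exp_le_exp.mpr (by linarith))
  rw [I_sum _ _ fun σ => MeasF.prod _ (hm σ)] at h1
  refine h1.trans ((Finset.sum_le_card_nsmul _ _ _ fun σ hσ => ?_).trans
    (by rw [Finset.card_range, nsmul_eq_mul]))
  rw [I_prod (cell (k + 1) σ) (cell_set _ σ) (hm σ) (fun c m y hy => by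
    simp only [Multiset.filter_cons_of_neg (p := (cell (k + 1) σ · = c)) m hy]) _ _
    ((mu_ae L).mono (hin σ hσ)), ← card_labs]
  exact Finset.prod_le_pow_card _ _ _ fun c _ => cell_le h.toAd _ _ _ _ (by omega) σ c

lemma D2_mono_mem {w w' : E3 → E3 → ℝ} (m : Multiset E3)
    (h : ∀ y ∈ m, ∀ y' ∈ m, w y y' ≤ w' y y') : D2 w m ≤ D2 w' m := by
  obtain ⟨N, x, rfl⟩ := exists_conf m
  simp only [D2_conf]
  exact Finset.sum_le_sum fun i _ => Finset.sum_le_sum fun j _ =>
    h _ (mem_conf x i) _ (mem_conf x j)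

lemma Xi_ge (h : Ok K a) (μ : ℝ) {K0 j : ℕ} (hj : 1 ≤ j) (hK : K0 ≤ j) :
    ENNReal.ofReal (Real.exp ((4 * j : ℝ) ^ 3 *
      (μ / 64 + (∑ k ∈ Finset.range K0, a k) / 65536))) ≤ Xi K a μ (4 * j) := by
  let T : Finset (Fin 3 → ℤ) :=
    Fintype.piFinset fun _ => (Finset.range j).image fun i : ℕ => (4 * i : ℤ)
  have hT : T.card = j ^ 3 := by
    simp only [T, Fintype.card_piFinset, Finset.prod_const, Finset.card_univ, Fintype.card_fin]
    rw [Finset.card_image_of_injective _ (fun x y h => by simpa using h), Finset.card_range]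
  have hTm : MeasurableSet {y | cell 1 0 y ∈ T} :=
    cell_meas 1 0 (t := (T : Set (Fin 3 → ℤ))) T.countable_toSet.measurableSet
  have hfl : ∀ y, cell 1 0 y ∈ T → ∀ i, ∃ u : ℕ, u < j ∧ ⌊y i⌋ = 4 * u := by
    intro y hy i
    have := Fintype.mem_piFinset.mp hy i
    simp only [cell, Finset.mem_image, Finset.mem_range] at this
    obtain ⟨u, hu, h2⟩ := this
    exact ⟨u, hu, by simpa using h2.symm⟩
  have hsub : {y | cell 1 0 y ∈ T} ⊆ box (4 * j) := by
    intro y hy i
    obtain ⟨u, hu, h2⟩ := hfl y hy i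
    have a1 := Int.floor_le (y i)
    have a2 := Int.lt_floor_add_one (y i)
    rw [h2] at a1 a2
    have : (u : ℝ) + 1 ≤ j := by exact_mod_cast hu
    push_cast at a1 a2
    exact ⟨le_trans (by positivity) a1, by linarith⟩
  let f : (Fin 3 → ℤ) → Multiset E3 → ℝ≥0∞ := fun c m =>
    if ((m.filter (cell 1 0 · = c)).card : ℝ) = 1 then 1 else 0
  have hf : ∀ c, MeasF (f c) := fun c N => Measurable.ite
    (card_filter_meas (cell_set 1 0 c) N (measurableSet_singleton 1)) measurable_const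
    measurable_const
  refine le_trans ?_ (I_mono (μ := volume.restrict {y | cell 1 0 y ∈ T}) (f := fun m =>
    ENNReal.ofReal (Real.exp ((4 * j : ℝ) ^ 3 *
      (μ / 64 + (∑ k ∈ Finset.range K0, a k) / 65536))) * ∏ c ∈ T, f c m)
    (Measure.restrict_mono_set _ hsub) (ae_restrict_mem hTm)
    ((MeasF.const _).mul (MeasF.prod T hf)) ((MW_w0 K h.toAd).G _) fun m hm => ?_)
  · rw [I_const_mul _ _ (MeasF.prod T hf), I_prod (cell 1 0) (cell_set 1 0) hf (fun c m y hy => by
      simp only [f, Multiset.filter_cons_of_neg (p := (cell 1 0 · = c)) m hy]) T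
      (volume.restrict {y | cell 1 0 y ∈ T}) (ae_restrict_mem hTm)]
    refine le_mul_of_one_le_right' (Finset.one_le_prod' fun c hc => le_trans ?_ (I_ge_one _ (hf c)))
    rw [setLIntegral_congr_fun (cell_set 1 0 c) (g := fun _ => 1) (fun y hy => by
      have : cell 1 0 y = c := hy
      simp [f, Multiset.filter_singleton, this]), setLIntegral_one,
      Measure.restrict_apply (cell_set 1 0 c)]
    have e : (1 : ℝ≥0∞) = volume ((WithLp.ofLp : E3 → Fin 3 → ℝ) ⁻¹'
        Set.pi univ fun i => Ico (c i : ℝ) (c i + 1)) := by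
      rw [(PiLp.volume_preserving_ofLp (Fin 3)).measure_preimage
        (MeasurableSet.univ_pi fun _ => measurableSet_Ico).nullMeasurableSet, Real.volume_pi_Ico]
      simp
    rw [e]
    refine measure_mono fun y hy => ?_
    have : cell 1 0 y = c := by
      funext i
      have := hy i (mem_univ i)
      simpa [cell, Int.floor_eq_iff] using this
    exact ⟨this, by simpa [this] using hc⟩
  · by_cases h1 : ∀ c ∈ T, ((m.filter (cell 1 0 · = c)).card : ℝ) = 1
    swap
    · push Not at h1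
      obtain ⟨c, hc, h1⟩ := h1
      rw [Finset.prod_eq_zero hc (by simp only [f, if_neg h1])]; simp
    rw [Finset.prod_eq_one (fun c hc => by simp only [f, if_pos (h1 c hc)]), mul_one]
    refine ENNReal.ofReal_le_ofReal (Real.exp_le_exp.mpr ?_)
    have e1 := sum_cells (cell 1 0) T (fun _ _ => 0) 1 m hm
    have e2 := sum_cells (cell 1 0) T (fun _ _ => 1) 0 m hm
    simp only [D2_const, zero_mul, zero_add, one_mul, add_zero] at e1 e2
    rw [Finset.sum_congr rfl h1] at e1
    rw [Finset.sum_congr rfl (g := fun _ => 1) fun c hc => by rw [h1 c hc, one_pow]] at e2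
    simp only [Finset.sum_const, hT, nsmul_eq_mul, mul_one] at e1 e2
    have e3 : D2 (nr 1) m ≤ D2 (sm (cell 1 0)) m := by
      refine D2_mono_mem m fun y hy y' hy' => ?_
      unfold nr
      split_ifs with h2
      swap; · exact sm_nonneg _ _ _
      have : cell 1 0 y = cell 1 0 y' := by
        funext i
        obtain ⟨u, _, hu⟩ := hfl y (hm y hy) i
        obtain ⟨u', _, hu'⟩ := hfl y' (hm y' hy') i
        have b1 := floor_near (R := 2) (by simpa using h2) i
        have b2 := floor_near (R := 2) (y := y') (y' := y) (by simpa [dist_comm] using h2) i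
        simp only [cell]; omega
      simp [sm, this]
    have hj' : (1 : ℝ) ≤ j := by exact_mod_cast hj
    have hK' : (K0 : ℝ) ≤ j := by exact_mod_cast hK
    have e4 := h.toAd.D2_ge (K := K0) (L := 4 * j) (by positivity) (by linarith) m
      fun y hy => hsub (hm y hy)
    have e5 : D2 (nr 1) m ≤ m.card := by
      refine e3.trans (le_of_eq ?_)
      rw [← e1]; exact e2.symm
    have e6 := mul_le_mul_of_nonneg_left e5 h.K_pos.le
    rw [D2_w0]
    rw [← e1] at e4 e6 ⊢
    push_cast at e4 e6 ⊢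
    have e7 : ((j : ℝ) ^ 3) ^ 2 / (8 * (4 * j) ^ 3) = j ^ 3 / 512 := by field_simp; ring
    rw [e7] at e4
    nlinarith

end Vale.Agent.P171
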